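import Vale.Agent.P105.Salem.Defs

open MeasureTheory ProbabilityTheory Filter
open scoped ENNReal Topology

namespace Vale.Agent.P105

namespace AlgAux

lemma two_sqrt_pos : (0 : ℝ) ≤ 2 * √2 - 1 := by
  have h : (1 : ℝ) ≤ √2 := by
    rw [Real.le_sqrt (by norm_num) (by norm_num)]; norm_num
  linarith

lemma sqrt2_gt : (1.414213562373 : ℝ) < √2 := by
  rw [Real.lt_sqrt (by norm_num)]; norm_num

lemma sqrt2_lt : √2 < (1.414213562374 : ℝ) := by
  rw [Real.sqrt_lt' (by norm_num)]; norm_num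

lemma q_gt : (1.352193449453 : ℝ) < √(2 * √2 - 1) := by
  rw [Real.lt_sqrt (by norm_num)]
  have := sqrt2_gt
  norm_num at this ⊢
  linarith

lemma q_lt : √(2 * √2 - 1) < (1.352193449455 : ℝ) := by
  rw [Real.sqrt_lt' (by norm_num)]
  have := sqrt2_lt
  norm_num at this ⊢
  linarith

lemma s2 : √2 * √2 = (2 : ℝ) := Real.mul_self_sqrt (by norm_num)

lemma q2 : √(2 * √2 - 1) * √(2 * √2 - 1) = (2 * √2 - 1 : ℝ) := Real.mul_self_sqrt two_sqrt_pos

lemma r2 : √(1 + 2 * √2) * √(1 + 2 * √2) = (1 + 2 * √2 : ℝ) :=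
  Real.mul_self_sqrt (by positivity)

end AlgAux

open AlgAux

lemma bet_gt : (1.88320350591 : ℝ) < bet := by
  unfold bet
  have h1 := sqrt2_gt
  have h2 := q_gt
  norm_num at h1 h2 ⊢
  linarith

lemma bet_lt : bet < (1.88320350592 : ℝ) := by
  unfold bet
  have h1 := sqrt2_lt
  have h2 := q_lt
  norm_num at h1 h2 ⊢
  linarith

namespace AlgAux

lemma bet_pos : 0 < bet := by
  have := bet_gt
  norm_num at this
  linarith

/-- quadratic equation over `ℚ(√2)` -/
lemma bet_quad : bet ^ 2 - (1 + √2) * bet + 1 = 0 := by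
  unfold bet
  have h1 := s2
  have h2 := q2
  generalize √(2 * √2 - 1) = q at *
  generalize √2 = s at *
  linear_combination (1 / 4) * h2 - (1 / 4) * h1

end AlgAux

lemma bet_root : bet ^ 4 - 2 * bet ^ 3 + bet ^ 2 - 2 * bet + 1 = 0 := by
  have h1 := bet_quad
  have h2 := s2
  generalize √2 = s at *
  linear_combination (bet ^ 2 - (1 - s) * bet + 1) * h1 + bet ^ 2 * h2

lemma bet_mul_lmb : bet * lmb = 1 := by
  unfold lmb
  exact mul_inv_cancel₀ bet_pos.ne'

lemma lmb_root : lmb ^ 4 - 2 * lmb ^ 3 + lmb ^ 2 - 2 * lmb + 1 = 0 := by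
  have h1 := bet_root
  have h2 := bet_mul_lmb
  have h3 : bet ^ 4 * (lmb ^ 4 - 2 * lmb ^ 3 + lmb ^ 2 - 2 * lmb + 1) = 0 := by
    have e : bet ^ 4 * (lmb ^ 4 - 2 * lmb ^ 3 + lmb ^ 2 - 2 * lmb + 1) =
        (bet * lmb) ^ 4 - 2 * bet * (bet * lmb) ^ 3 + bet ^ 2 * (bet * lmb) ^ 2
          - 2 * bet ^ 3 * (bet * lmb) + bet ^ 4 := by ring
    rw [e, h2]
    linarith
  have h4 : bet ^ 4 ≠ 0 := pow_ne_zero 4 bet_pos.ne'
  exact (mul_eq_zero.1 h3).resolve_left h4

namespace AlgAux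

lemma lmb_quad : lmb ^ 2 - (1 + √2) * lmb + 1 = 0 := by
  have h1 := bet_quad
  have h2 := bet_mul_lmb
  have h3 : bet ^ 2 * (lmb ^ 2 - (1 + √2) * lmb + 1) = 0 := by
    have e : bet ^ 2 * (lmb ^ 2 - (1 + √2) * lmb + 1) =
        (bet * lmb) ^ 2 - (1 + √2) * bet * (bet * lmb) + bet ^ 2 := by ring
    rw [e, h2]
    linarith
  have h4 : bet ^ 2 ≠ 0 := pow_ne_zero 2 bet_pos.ne'
  exact (mul_eq_zero.1 h3).resolve_left h4

lemma bet_add_lmb : bet + lmb = 1 + √2 := by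
  have h1 := bet_quad
  have h2 := bet_mul_lmb
  have h3 : bet * (bet + lmb) = bet * (1 + √2) := by linarith
  exact mul_left_cancel₀ bet_pos.ne' h3

/-- quadratic equation of `alp` -/
lemma alp_quad : alp ^ 2 - (1 - (√2 : ℝ)) * alp + 1 = 0 := by
  have h1 := s2
  have h2 := r2
  apply Complex.ext
  · simp only [alp, sq, Complex.add_re, Complex.sub_re, Complex.mul_re, Complex.mul_im,
      Complex.one_re, Complex.one_im, Complex.ofReal_re, Complex.ofReal_im, Complex.sub_im,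
      Complex.zero_re]
    generalize √(1 + 2 * √2) = r at *
    generalize √2 = s at *
    linear_combination (-1 / 4) * h2 - (1 / 4) * h1
  · simp only [alp, sq, Complex.add_im, Complex.sub_re, Complex.mul_re, Complex.mul_im,
      Complex.one_re, Complex.one_im, Complex.ofReal_re, Complex.ofReal_im, Complex.sub_im,
      Complex.zero_im]
    ring

end AlgAux

lemma alp_root : alp ^ 4 - 2 * alp ^ 3 + alp ^ 2 - 2 * alp + 1 = 0 := by
  have h1 := alp_quad
  have h2 : ((√2 : ℝ) : ℂ) * ((√2 : ℝ) : ℂ) = 2 := by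
    rw [← Complex.ofReal_mul, s2]; norm_num
  generalize ((√2 : ℝ) : ℂ) = s at *
  linear_combination (alp ^ 2 - (1 + s) * alp + 1) * h1 + alp ^ 2 * h2

lemma norm_alp : ‖alp‖ = 1 := by
  have h1 := s2
  have h2 := r2
  have h3 : Complex.normSq alp = 1 := by
    rw [Complex.normSq_apply]
    simp only [alp]
    generalize √(1 + 2 * √2) = r at *
    generalize √2 = s at *
    linear_combination (1 / 4) * h2 + (1 / 4) * h1
  rw [Complex.norm_def, h3, Real.sqrt_one]

namespace AlgAux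

lemma integral_of_root {x : ℝ} (h : x ^ 4 - 2 * x ^ 3 + x ^ 2 - 2 * x + 1 = 0) :
    IsIntegral ℤ x := by
  refine ⟨Polynomial.X ^ 4 - 2 * Polynomial.X ^ 3 + Polynomial.X ^ 2 - 2 * Polynomial.X + 1,
    ?_, ?_⟩
  · have e : (Polynomial.X ^ 4 - 2 * Polynomial.X ^ 3 + Polynomial.X ^ 2 - 2 * Polynomial.X + 1
      : Polynomial ℤ) = Polynomial.X ^ 4 + (-2 * Polynomial.X ^ 3 + Polynomial.X ^ 2
        - 2 * Polynomial.X + 1) := by ring
    rw [e]
    apply Polynomial.monic_X_pow_add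
    compute_degree!
  · simp only [Polynomial.eval₂_add, Polynomial.eval₂_sub, Polynomial.eval₂_mul,
      Polynomial.eval₂_pow, Polynomial.eval₂_X, Polynomial.eval₂_one, Polynomial.eval₂_ofNat]
    exact h

end AlgAux

lemma bet_integral : IsIntegral ℤ bet := integral_of_root bet_root
lemma lmb_integral : IsIntegral ℤ lmb := integral_of_root lmb_root

lemma cos_ne_of_integral {x : ℝ} (hx : IsIntegral ℤ x) : Real.cos (Real.pi * x) ≠ 0 := by
  intro h
  rw [Real.cos_eq_zero_iff] at h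
  obtain ⟨k, hk⟩ := h
  have hx2 : x = ((((2 * k + 1 : ℤ) : ℚ) / 2 : ℚ) : ℝ) := by
    push_cast
    have hpi := Real.pi_ne_zero
    field_simp at hk
    linarith
  rw [hx2] at hx
  have h1 : IsIntegral ℤ (((2 * k + 1 : ℤ) : ℚ) / 2 : ℚ) := by
    have h2 : IsIntegral ℤ (algebraMap ℚ ℝ (((2 * k + 1 : ℤ) : ℚ) / 2 : ℚ)) := hx
    exact (isIntegral_algebraMap_iff (algebraMap ℚ ℝ).injective).1 h2
  obtain ⟨n, hn⟩ := IsIntegrallyClosed.isIntegral_iff.1 h1
  have h3 : ((2 * k + 1 : ℤ) : ℚ) = 2 * n := by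
    have : (algebraMap ℤ ℚ n) = (n : ℚ) := rfl
    rw [this] at hn
    rw [hn]
    field_simp
  have h4 : (2 * k + 1 : ℤ) = 2 * n := by exact_mod_cast h3
  omega

namespace AlgAux

lemma rat_zero {p q : ℚ} (h : (p : ℝ) + q * √2 = 0) : p = 0 ∧ q = 0 := by
  have hq : q = 0 := by
    by_contra hq
    apply irrational_sqrt_two
    refine ⟨-p / q, ?_⟩
    push_cast
    have : (q : ℝ) ≠ 0 := by exact_mod_cast hq
    field_simp
    linarith
  refine ⟨?_, hq⟩
  rw [hq] at h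
  simp only [Rat.cast_zero, zero_mul, add_zero] at h
  exact_mod_cast h

lemma pos_def {A B t : ℝ} (ht : 0 < t) (ht2 : t * t = 2)
    (h : B ^ 2 + (1 - t) * (B * A) + A ^ 2 = 0) : A = 0 ∧ B = 0 := by
  have e : (B + (1 - t) / 2 * A) ^ 2 + (1 + 2 * t) / 4 * A ^ 2 = 0 := by
    linear_combination h + (A ^ 2 / 4) * ht2
  have h1 : 0 ≤ (B + (1 - t) / 2 * A) ^ 2 := sq_nonneg _
  have h2 : 0 ≤ (1 + 2 * t) / 4 * A ^ 2 := by positivity
  have h3 : (1 + 2 * t) / 4 * A ^ 2 = 0 := by linarith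
  have h4 : (1 + 2 * t) / 4 ≠ 0 := by positivity
  have hA : A = 0 := by
    have := (mul_eq_zero.1 h3).resolve_left h4
    exact pow_eq_zero_iff (two_ne_zero) |>.1 this
  refine ⟨hA, ?_⟩
  rw [hA] at h
  have : B ^ 2 = 0 := by linarith
  exact pow_eq_zero_iff (two_ne_zero) |>.1 this

lemma lin_indep {c0 c1 c2 c3 : ℚ}
    (h : (c3 : ℝ) * bet ^ 3 + c2 * bet ^ 2 + c1 * bet + c0 = 0) :
    c0 = 0 ∧ c1 = 0 ∧ c2 = 0 ∧ c3 = 0 := by
  have hq := bet_quad
  have hs := s2
  have ht : (0 : ℝ) < √2 := by positivity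
  obtain ⟨a, ha⟩ : ∃ a : ℚ, a = 2 * c3 + c2 + c1 := ⟨_, rfl⟩
  obtain ⟨b, hb⟩ : ∃ b : ℚ, b = 2 * c3 + c2 := ⟨_, rfl⟩
  obtain ⟨c, hc⟩ : ∃ c : ℚ, c = c0 - c2 - c3 := ⟨_, rfl⟩
  obtain ⟨d, hd⟩ : ∃ d : ℚ, d = -c3 := ⟨_, rfl⟩
  have haR : (a : ℝ) = 2 * c3 + c2 + c1 := by rw [ha]; push_cast; ring
  have hbR : (b : ℝ) = 2 * c3 + c2 := by rw [hb]; push_cast; ring
  have hcR : (c : ℝ) = c0 - c2 - c3 := by rw [hc]; push_cast; ring
  have hdR : (d : ℝ) = -c3 := by rw [hd]; push_cast; ring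
  have h1 : bet * ((a : ℝ) + b * √2) = -((c : ℝ) + d * √2) := by
    rw [haR, hbR, hcR, hdR]
    generalize √2 = s at *
    linear_combination h - (c3 * (bet + (1 + s)) + c2) * hq - c3 * bet * hs
  have h2 : ((c : ℝ) + d * √2) ^ 2 + (1 + √2) * (((c : ℝ) + d * √2) * ((a : ℝ) + b * √2))
      + ((a : ℝ) + b * √2) ^ 2 = 0 := by
    have h3 : ((c : ℝ) + d * √2) = -(bet * ((a : ℝ) + b * √2)) := by linarith
    rw [h3]
    linear_combination ((a : ℝ) + b * √2) ^ 2 * hq
  have h4 : (((c ^ 2 + 2 * d ^ 2 + (a * c + 2 * b * d) + 2 * (a * d + b * c) + a ^ 2 + 2 * b ^ 2 : ℚ))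
      : ℝ) + ((2 * c * d + (a * c + 2 * b * d) + (a * d + b * c) + 2 * a * b : ℚ) : ℝ) * √2 = 0 := by
    push_cast
    generalize √2 = s at *
    linear_combination h2 - (d ^ 2 + b * d + (a * d + b * c) + b * d * s + b ^ 2) * hs
  obtain ⟨h5, h6⟩ := rat_zero h4
  have h5' : ((c : ℝ) ^ 2 + 2 * d ^ 2 + (a * c + 2 * b * d) + 2 * (a * d + b * c) + a ^ 2
      + 2 * b ^ 2) = 0 := by exact_mod_cast h5
  have h6' : (2 * (c : ℝ) * d + (a * c + 2 * b * d) + (a * d + b * c) + 2 * a * b) = 0 := by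
    exact_mod_cast h6
  have h7 : ((c : ℝ) - d * √2) ^ 2 + (1 - √2) * (((c : ℝ) - d * √2) * ((a : ℝ) - b * √2))
      + ((a : ℝ) - b * √2) ^ 2 = 0 := by
    generalize √2 = s at *
    linear_combination h5' - s * h6' + (d ^ 2 + b * d + (a * d + b * c) - b * d * s + b ^ 2) * hs
  obtain ⟨h8, h9⟩ := pos_def ht hs h7
  have h10 : (a : ℝ) + (-b : ℚ) * √2 = 0 := by push_cast; linarith
  have h11 : (c : ℝ) + (-d : ℚ) * √2 = 0 := by push_cast; linarith
  obtain ⟨k1, k2⟩ := rat_zero h10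
  obtain ⟨k3, k4⟩ := rat_zero h11
  have k5 : c3 = 0 := by linarith
  have k6 : c2 = 0 := by linarith
  have k7 : c1 = 0 := by linarith
  have k8 : c0 = 0 := by linarith
  exact ⟨k8, k7, k6, k5⟩

end AlgAux

lemma bet_not_pisot : ¬ IsPisot bet := by
  rintro ⟨_, _, h⟩
  obtain ⟨p, hp⟩ : ∃ p : Polynomial ℚ, p = Polynomial.X ^ 4 + (-2 * Polynomial.X ^ 3
    + Polynomial.X ^ 2 - 2 * Polynomial.X + 1) := ⟨_, rfl⟩
  have hmon : p.Monic := by
    rw [hp]
    apply Polynomial.monic_X_pow_add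
    compute_degree!
  have hdeg : p.degree = 4 := by
    rw [hp]
    compute_degree!
  have hb : Polynomial.aeval bet p = 0 := by
    rw [hp]
    simp only [map_add, map_sub, map_mul, map_neg, map_pow, Polynomial.aeval_X, map_one,
      map_ofNat]
    linear_combination bet_root
  have ha : Polynomial.aeval alp p = 0 := by
    rw [hp]
    simp only [map_add, map_sub, map_mul, map_neg, map_pow, Polynomial.aeval_X, map_one,
      map_ofNat]
    linear_combination alp_root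
  obtain ⟨r, hr⟩ : ∃ r, r = minpoly ℚ bet %ₘ p := ⟨_, rfl⟩
  have hrd : r.degree < 4 := by
    rw [hr, ← hdeg]
    exact Polynomial.degree_modByMonic_lt _ hmon
  have hrb : Polynomial.aeval bet r = 0 := by
    rw [hr, Polynomial.modByMonic_eq_sub_mul_div]
    simp [hb]
  have hsum : r = ∑ i ∈ Finset.range 4, Polynomial.monomial i (r.coeff i) := by
    by_cases h0 : r = 0
    · simp [h0]
    · exact r.as_sum_range' 4 ((Polynomial.natDegree_lt_iff_degree_lt h0).2 hrd)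
  have hz : r = 0 := by
    have h1 : (r.coeff 3 : ℝ) * bet ^ 3 + r.coeff 2 * bet ^ 2 + r.coeff 1 * bet + r.coeff 0
        = 0 := by
      rw [hsum] at hrb
      simp only [Finset.sum_range_succ, Finset.range_zero, Finset.sum_empty, map_add,
        Polynomial.aeval_monomial, zero_add, pow_zero, mul_one, pow_one,
        eq_ratCast] at hrb
      linarith
    obtain ⟨k0, k1, k2, k3⟩ := lin_indep h1
    rw [hsum]
    simp [Finset.sum_range_succ, k0, k1, k2, k3]
  have hm : Polynomial.aeval alp (minpoly ℚ bet) = 0 := by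
    have h1 := Polynomial.modByMonic_add_div (minpoly ℚ bet) p
    rw [← hr, hz, zero_add] at h1
    rw [← h1]
    simp [ha]
  have hne : alp ≠ (bet : ℂ) := by
    intro h1
    have h2 := congrArg Complex.im h1
    simp only [alp, Complex.ofReal_im] at h2
    have : (0 : ℝ) < √(1 + 2 * √2) / 2 := by positivity
    linarith
  have := h alp hm hne
  rw [norm_alp] at this
  exact lt_irrefl _ this

lemma trace_pow (k : ℕ) : ∃ n : ℤ, bet ^ k + lmb ^ k + 2 * (alp ^ k).re = n := by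
  have hb : bet ^ 2 = (1 + √2) * bet - 1 := by linarith [bet_quad]
  have hl : lmb ^ 2 = (1 + √2) * lmb - 1 := by linarith [lmb_quad]
  have ha : alp ^ 2 = (1 - (√2 : ℝ)) * alp - 1 := by linear_combination alp_quad
  have hsum := bet_add_lmb
  have hre : alp.re = (1 - √2) / 2 := rfl
  have hs := s2
  induction k using Nat.strong_induction_on with
  | _ k ih =>
    rcases lt_or_ge k 4 with hk | hk
    · interval_cases k
      · exact ⟨4, by norm_num⟩
      · refine ⟨2, ?_⟩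
        simp only [pow_one, hre]
        push_cast
        linarith
      · refine ⟨2, ?_⟩
        have e : (alp ^ 2).re = (1 - √2) * alp.re - 1 := by
          rw [ha]
          simp [Complex.sub_re, Complex.mul_re]
        rw [e, hb, hl, hre]
        push_cast
        generalize √2 = s at *
        linear_combination (1 + s) * hsum + 2 * hs
      · refine ⟨8, ?_⟩
        have e1 : alp ^ 3 = (1 - (√2 : ℝ)) * ((1 - (√2 : ℝ)) * alp - 1) - alp := by
          linear_combination (alp + (1 - (√2 : ℝ))) * ha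
        have e : (alp ^ 3).re = (1 - √2) * ((1 - √2) * alp.re - 1) - alp.re := by
          rw [e1]
          simp [Complex.sub_re, Complex.mul_re]
        have e2 : bet ^ 3 = (1 + √2) * ((1 + √2) * bet - 1) - bet := by
          linear_combination (bet + (1 + √2)) * hb
        have e3 : lmb ^ 3 = (1 + √2) * ((1 + √2) * lmb - 1) - lmb := by
          linear_combination (lmb + (1 + √2)) * hl
        rw [e, e2, e3, hre]
        push_cast
        generalize √2 = s at *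
        linear_combination ((1 + s) ^ 2 - 1) * hsum + 6 * hs
    · obtain ⟨m, rfl⟩ : ∃ m, k = m + 4 := ⟨k - 4, by omega⟩
      obtain ⟨n0, h0⟩ := ih m (by omega)
      obtain ⟨n1, h1⟩ := ih (m + 1) (by omega)
      obtain ⟨n2, h2⟩ := ih (m + 2) (by omega)
      obtain ⟨n3, h3⟩ := ih (m + 3) (by omega)
      refine ⟨2 * n3 - n2 + 2 * n1 - n0, ?_⟩
      have e1 : bet ^ (m + 4) = 2 * bet ^ (m + 3) - bet ^ (m + 2) + 2 * bet ^ (m + 1) - bet ^ m := by
        linear_combination (bet ^ m) * bet_root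
      have e2 : lmb ^ (m + 4) = 2 * lmb ^ (m + 3) - lmb ^ (m + 2) + 2 * lmb ^ (m + 1) - lmb ^ m := by
        linear_combination (lmb ^ m) * lmb_root
      have e3 : alp ^ (m + 4) = 2 * alp ^ (m + 3) - alp ^ (m + 2) + 2 * alp ^ (m + 1) - alp ^ m := by
        linear_combination (alp ^ m) * alp_root
      have e4 : (alp ^ (m + 4)).re = 2 * (alp ^ (m + 3)).re - (alp ^ (m + 2)).re
          + 2 * (alp ^ (m + 1)).re - (alp ^ m).re := by
        rw [e3]
        simp [Complex.sub_re, Complex.add_re, Complex.mul_re]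
      rw [e1, e2, e4]
      push_cast
      rw [← h0, ← h1, ← h2, ← h3]
      ring

/-- traces of integer polynomials of degree `≤ 3`, times any power -/
lemma trace_poly (c : Fin 4 → ℤ) (j : ℕ) : ∃ n : ℤ,
    (∑ k : Fin 4, (c k : ℝ) * bet ^ (k : ℕ)) * bet ^ j
      + (∑ k : Fin 4, (c k : ℝ) * lmb ^ (k : ℕ)) * lmb ^ j
      + 2 * ((∑ k : Fin 4, (c k : ℂ) * alp ^ (k : ℕ)) * alp ^ j).re = n := by
  obtain ⟨n0, h0⟩ := trace_pow j
  obtain ⟨n1, h1⟩ := trace_pow (j + 1)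
  obtain ⟨n2, h2⟩ := trace_pow (j + 2)
  obtain ⟨n3, h3⟩ := trace_pow (j + 3)
  refine ⟨c 0 * n0 + c 1 * n1 + c 2 * n2 + c 3 * n3, ?_⟩
  have e : ((∑ k : Fin 4, (c k : ℂ) * alp ^ (k : ℕ)) * alp ^ j) =
      (c 0 : ℂ) * alp ^ j + (c 1 : ℂ) * alp ^ (j + 1) + (c 2 : ℂ) * alp ^ (j + 2)
        + (c 3 : ℂ) * alp ^ (j + 3) := by
    simp only [Fin.sum_univ_four, Fin.isValue, Fin.val_zero, Fin.val_one, Fin.val_two]
    have : ((3 : Fin 4) : ℕ) = 3 := rfl
    rw [this]
    ring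
  have e' : (((∑ k : Fin 4, (c k : ℂ) * alp ^ (k : ℕ)) * alp ^ j)).re =
      (c 0 : ℝ) * (alp ^ j).re + (c 1 : ℝ) * (alp ^ (j + 1)).re + (c 2 : ℝ) * (alp ^ (j + 2)).re
        + (c 3 : ℝ) * (alp ^ (j + 3)).re := by
    rw [e]
    simp [Complex.add_re, Complex.mul_re]
  rw [e']
  simp only [Fin.sum_univ_four, Fin.isValue, Fin.val_zero, Fin.val_one, Fin.val_two]
  have : ((3 : Fin 4) : ℕ) = 3 := rfl
  rw [this]
  push_cast
  rw [← h0, ← h1, ← h2, ← h3]
  ring

end Vale.Agent.P105
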