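import Mathlib

/-!
# P105 [CRIT]: criterion for singularity, moments of cosine statistics
-/

open MeasureTheory ProbabilityTheory Filter
open scoped ENNReal Topology

namespace Vale.Agent.P105

namespace CritAux

lemma chebyshev {μ : Measure ℝ} [IsProbabilityMeasure μ] {G : ℝ → ℝ} (hG : Measurable G)
    {C : ℝ} (hC : ∀ x, |G x| ≤ C) {A ε : ℝ} (hA : 0 < A) (hint : ∫ x, (G x) ^ 2 ∂μ ≤ ε * A ^ 2) :
    μ {x | A / 2 ≤ |G x|} ≤ ENNReal.ofReal (4 * ε) := by
  have h1 : Integrable (fun x => (G x) ^ 2) μ := by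
    apply Integrable.of_bound (hG.pow_const 2).aestronglyMeasurable (C ^ 2)
    refine Eventually.of_forall fun x => ?_
    rw [Real.norm_eq_abs, abs_of_nonneg (sq_nonneg _), ← sq_abs]
    exact pow_le_pow_left₀ (abs_nonneg _) (hC x) 2
  have h2 := mul_meas_ge_le_integral_of_nonneg (μ := μ)
    (Eventually.of_forall fun x => sq_nonneg (G x)) h1 (A ^ 2 / 4)
  have h3 : {x | A / 2 ≤ |G x|} ⊆ {x | A ^ 2 / 4 ≤ (G x) ^ 2} := by
    intro x hx
    have hx' : A / 2 ≤ |G x| := hx
    show A ^ 2 / 4 ≤ (G x) ^ 2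
    rw [← sq_abs (G x)]
    nlinarith
  refine (measure_mono h3).trans ?_
  rw [← ofReal_measureReal]
  apply ENNReal.ofReal_le_ofReal
  have h4 : A ^ 2 / 4 * μ.real {x | A ^ 2 / 4 ≤ (G x) ^ 2} ≤ ε * A ^ 2 := h2.trans hint
  have h5 : 0 < A ^ 2 := by positivity
  have h6 : A ^ 2 * μ.real {x | A ^ 2 / 4 ≤ (G x) ^ 2} ≤ A ^ 2 * (4 * ε) := by linarith
  exact le_of_mul_le_mul_left h6 h5

lemma tsum_geom : ∑' n : ℕ, ENNReal.ofReal (4 * (1 / 2) ^ n) ≠ ⊤ := by
  have h1 : Summable fun n : ℕ => (4 : ℝ) * (1 / 2) ^ n :=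
    (summable_geometric_of_lt_one (by norm_num) (by norm_num)).mul_left 4
  rw [← ENNReal.ofReal_tsum_of_nonneg (fun n => by positivity) h1]
  exact ENNReal.ofReal_ne_top

end CritAux

open CritAux

theorem singular_criterion {μ ν : Measure ℝ} [IsProbabilityMeasure μ] [IsProbabilityMeasure ν]
    (h : ∀ ε : ℝ, 0 < ε → ∃ (F : ℝ → ℝ) (A C : ℝ), Measurable F ∧ (∀ x, |F x| ≤ C) ∧ 0 < A ∧
      ∫ x, (F x - A) ^ 2 ∂ν ≤ ε * A ^ 2 ∧ ∫ x, (F x) ^ 2 ∂μ ≤ ε * A ^ 2) :
    ∃ E : Set ℝ, MeasurableSet E ∧ ν Eᶜ = 0 ∧ μ E = 0 := by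
  choose F A C hF hC hA hν hμ using fun n : ℕ => h ((1 / 2) ^ n) (by positivity)
  let E : ℕ → Set ℝ := fun n => {x | A n / 2 ≤ F n x}
  have hE : ∀ n, MeasurableSet (E n) := fun n => measurableSet_le measurable_const (hF n)
  have hμE : ∀ n, μ (E n) ≤ ENNReal.ofReal (4 * (1 / 2) ^ n) := by
    intro n
    refine (measure_mono ?_).trans (chebyshev (hF n) (hC n) (hA n) (hμ n))
    intro x hx
    exact (show A n / 2 ≤ F n x from hx).trans (le_abs_self _)
  have hνE : ∀ n, ν (E n)ᶜ ≤ ENNReal.ofReal (4 * (1 / 2) ^ n) := by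
    intro n
    refine (measure_mono ?_).trans (chebyshev (G := fun x => F n x - A n)
      ((hF n).sub_const _) (C := C n + |A n|) (fun x => (abs_sub _ _).trans
        (add_le_add (hC n x) le_rfl)) (hA n) (hν n))
    intro x hx
    have hx' : ¬ A n / 2 ≤ F n x := hx
    show A n / 2 ≤ |F n x - A n|
    push Not at hx'
    rw [abs_sub_comm]
    refine le_trans ?_ (le_abs_self _)
    linarith
  refine ⟨limsup E atTop, MeasurableSet.measurableSet_limsup hE, ?_, ?_⟩
  · have h1 : ν (limsup (fun n => (E n)ᶜ) atTop) = 0 := by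
      apply measure_limsup_atTop_eq_zero
      exact ne_top_of_le_ne_top tsum_geom (ENNReal.tsum_le_tsum hνE)
    refine measure_mono_null ?_ h1
    intro x hx
    rw [mem_limsup_iff_frequently_mem]
    have h2 : ¬ ∃ᶠ n in atTop, x ∈ E n := by
      rw [← mem_limsup_iff_frequently_mem]
      exact hx
    rw [not_frequently] at h2
    exact h2.frequently
  · apply measure_limsup_atTop_eq_zero
    exact ne_top_of_le_ne_top tsum_geom (ENNReal.tsum_le_tsum hμE)

namespace CritAux

lemma integrable_cos {ν : Measure ℝ} [IsProbabilityMeasure ν] (t : ℝ) :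
    Integrable (fun x => Real.cos (t * x)) ν := by
  apply Integrable.of_bound (C := 1)
  · exact (by fun_prop : Measurable fun x => Real.cos (t * x)).aestronglyMeasurable
  · exact Eventually.of_forall fun x => by
      rw [Real.norm_eq_abs]
      exact Real.abs_cos_le_one _

lemma integral_cos_mul {ν : Measure ℝ} [IsProbabilityMeasure ν] (t : ℝ) :
    ∫ x, Real.cos (t * x) ∂ν = (charFun ν t).re := by
  rw [charFun_apply_real]
  have h1 : Integrable (fun x : ℝ => Complex.exp (t * x * Complex.I)) ν := by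
    apply Integrable.of_bound (C := 1)
    · exact (by fun_prop : Continuous fun x : ℝ =>
        Complex.exp (t * x * Complex.I)).aestronglyMeasurable
    · refine Eventually.of_forall fun x => ?_
      have : (t : ℂ) * x * Complex.I = ((t * x : ℝ) : ℂ) * Complex.I := by push_cast; ring
      rw [this, Complex.norm_exp_ofReal_mul_I]
  have h2 := integral_re h1
  have h3 : ∀ x : ℝ, RCLike.re (Complex.exp (t * x * Complex.I)) = Real.cos (t * x) := by
    intro x
    have : (t : ℂ) * x * Complex.I = ((t * x : ℝ) : ℂ) * Complex.I := by push_cast; ring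
    rw [this]
    exact Complex.exp_ofReal_mul_I_re _
  simp only [h3] at h2
  exact h2

end CritAux

/-- The linear statistic `∑ m < N, s m * cos (t m * x)`: first and second moments. -/
theorem integral_stat {ν : Measure ℝ} [IsProbabilityMeasure ν] (N : ℕ) (s t : ℕ → ℝ) :
    ∫ x, ∑ m ∈ Finset.range N, s m * Real.cos (t m * x) ∂ν
      = ∑ m ∈ Finset.range N, s m * (charFun ν (t m)).re := by
  rw [integral_finsetSum _ fun m _ => (integrable_cos (t m)).const_mul (s m)]
  refine Finset.sum_congr rfl fun m _ => ?_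
  rw [integral_const_mul, integral_cos_mul]

theorem integral_stat_sq {ν : Measure ℝ} [IsProbabilityMeasure ν] (N : ℕ) (s t : ℕ → ℝ) :
    ∫ x, (∑ m ∈ Finset.range N, s m * Real.cos (t m * x)) ^ 2 ∂ν
      = ∑ m ∈ Finset.range N, ∑ n ∈ Finset.range N, s m * s n *
        (((charFun ν (t m - t n)).re + (charFun ν (t m + t n)).re) / 2) := by
  have h1 : ∀ x : ℝ, (∑ m ∈ Finset.range N, s m * Real.cos (t m * x)) ^ 2 =
      ∑ m ∈ Finset.range N, ∑ n ∈ Finset.range N, s m * s n / 2 *
        (Real.cos ((t m - t n) * x) + Real.cos ((t m + t n) * x)) := by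
    intro x
    rw [sq, Finset.sum_mul_sum]
    refine Finset.sum_congr rfl fun m _ => Finset.sum_congr rfl fun n _ => ?_
    rw [sub_mul, add_mul, Real.cos_sub, Real.cos_add]
    ring
  have h2 : ∀ m n : ℕ, Integrable (fun x => s m * s n / 2 *
      (Real.cos ((t m - t n) * x) + Real.cos ((t m + t n) * x))) ν := fun m n =>
    ((integrable_cos _).add (integrable_cos _)).const_mul _
  simp only [h1]
  rw [integral_finsetSum _ fun m _ => integrable_finsetSum _ fun n _ => h2 m n]
  refine Finset.sum_congr rfl fun m _ => ?_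
  rw [integral_finsetSum _ fun n _ => h2 m n]
  refine Finset.sum_congr rfl fun n _ => ?_
  rw [integral_const_mul, integral_add (integrable_cos _) (integrable_cos _), integral_cos_mul,
    integral_cos_mul]
  ring

/-- null sets of the standard Gaussian are Lebesgue null -/
theorem volume_zero_of_gauss {E : Set ℝ} (h : gaussianReal 0 1 E = 0) : volume E = 0 :=
  gaussianReal_absolutelyContinuous' 0 one_ne_zero h

end Vale.Agent.P105
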