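import Vale.Agent.P105.Salem.Defs
import Vale.Agent.P105.Salem.Crit

/-!
# P105 [GAUSS]: the cosine statistic under the standard Gaussian measure
-/

open MeasureTheory ProbabilityTheory Filter
open scoped ENNReal Topology

namespace Vale.Agent.P105

namespace GaussAux

lemma bet_ge : (1.88 : ℝ) ≤ bet := by
  have h1 : (1.414 : ℝ) ≤ √2 := Real.le_sqrt_of_sq_le (by norm_num)
  have h2 : (1.35 : ℝ) ≤ √(2 * √2 - 1) := Real.le_sqrt_of_sq_le (by norm_num; linarith)
  unfold bet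
  linarith

lemma bet_pow_ge (k : ℕ) : 0.88 * (k : ℝ) ≤ bet ^ k - 1 := by
  have h := one_add_mul_le_pow (a := bet - 1) (by linarith [bet_ge]) k
  have h2 : (0 : ℝ) ≤ k := Nat.cast_nonneg k
  have h3 : 1 + (bet - 1) = bet := by ring
  rw [h3] at h
  nlinarith [bet_ge]

lemma exp_bound {x : ℝ} {k : ℕ} (h : 2 * (k : ℝ) ≤ |x|) :
    Real.exp (-(x ^ 2 / 2)) ≤ (1 / 2) ^ k := by
  have h0 : (0 : ℝ) ≤ k := Nat.cast_nonneg k
  have h1 : (k : ℝ) ≤ x ^ 2 / 2 := by
    rw [← sq_abs]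
    rcases Nat.eq_zero_or_pos k with rfl | hk
    · simp; positivity
    · have h2 : (1 : ℝ) ≤ k := by exact_mod_cast hk
      nlinarith
  have h2 : Real.exp (-(x ^ 2 / 2)) ≤ Real.exp (-(k : ℝ)) := Real.exp_le_exp.2 (by linarith)
  refine h2.trans ?_
  have h3 : Real.exp (-(k : ℝ)) = (Real.exp (-1)) ^ k := by
    rw [← Real.exp_nat_mul]
    congr 1
    ring
  rw [h3]
  apply pow_le_pow_left₀ (Real.exp_pos _).le
  rw [Real.exp_neg, ← one_div]
  apply one_div_le_one_div_of_le (by norm_num)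
  have := Real.add_one_le_exp 1
  linarith

/-- distance of natural numbers -/
def nd (m n : ℕ) : ℕ := (m - n) + (n - m)

lemma nd_comm (m n : ℕ) : nd m n = nd n m := by unfold nd; omega

lemma sum_nd_aux1 (m N : ℕ) (h : N ≤ m + 1) :
    ∑ n ∈ Finset.range N, ((1 : ℝ) / 2) ^ nd m n ≤ 2 * (1 / 2) ^ (m + 1 - N) := by
  induction N with
  | zero => simp
  | succ N ih =>
    rw [Finset.sum_range_succ]
    have h1 := ih (by omega)
    have h2 : nd m N = m - N := by unfold nd; omega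
    have h3 : m + 1 - N = (m - N) + 1 := by omega
    have h4 : m + 1 - (N + 1) = m - N := by omega
    rw [h2, h4]
    rw [h3, pow_succ] at h1
    linarith

lemma sum_nd_aux2 (m j : ℕ) :
    ∑ n ∈ Finset.range (m + 1 + j), ((1 : ℝ) / 2) ^ nd m n ≤ 3 - (1 / 2) ^ j := by
  induction j with
  | zero =>
    have := sum_nd_aux1 m (m + 1) le_rfl
    simp only [Nat.sub_self, pow_zero, mul_one] at this
    rw [add_zero, pow_zero]
    linarith
  | succ j ih =>
    rw [← add_assoc, Finset.sum_range_succ]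
    have h2 : nd m (m + 1 + j) = j + 1 := by unfold nd; omega
    rw [h2, pow_succ]
    linarith

lemma sum_nd (m N : ℕ) : ∑ n ∈ Finset.range N, ((1 : ℝ) / 2) ^ nd m n ≤ 3 := by
  rcases le_total N (m + 1) with h | h
  · refine (sum_nd_aux1 m N h).trans ?_
    have : ((1 : ℝ) / 2) ^ (m + 1 - N) ≤ 1 := pow_le_one₀ (by norm_num) (by norm_num)
    linarith
  · obtain ⟨j, rfl⟩ := Nat.exists_eq_add_of_le h
    refine (sum_nd_aux2 m j).trans ?_
    have : (0 : ℝ) ≤ (1 / 2) ^ j := by positivity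
    linarith

lemma abs_diff_ge {a : ℝ} (ha : 1 ≤ |a|) {m n : ℕ} (h : n ≤ m) :
    2 * (nd m n : ℝ) ≤ |Real.pi * a * bet ^ m - Real.pi * a * bet ^ n| ∧
    2 * (nd m n : ℝ) ≤ |Real.pi * a * bet ^ m + Real.pi * a * bet ^ n| := by
  obtain ⟨k, rfl⟩ := Nat.exists_eq_add_of_le h
  have hnd : nd (n + k) n = k := by unfold nd; omega
  rw [hnd]
  have hb := bet_ge
  have h1 : 1 ≤ bet ^ n := one_le_pow₀ (by linarith)
  have h2 := bet_pow_ge k
  have h3 : (0 : ℝ) ≤ k := Nat.cast_nonneg k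
  have hpi := Real.pi_gt_three
  have h4 : 2 * (k : ℝ) ≤ Real.pi * (bet ^ k - 1) := by nlinarith
  have h5 : 0 ≤ bet ^ k - 1 := le_trans (by positivity) h2
  have h6 : 2 * (k : ℝ) ≤ Real.pi * |a| * bet ^ n * (bet ^ k - 1) := by
    calc 2 * (k : ℝ) ≤ Real.pi * (bet ^ k - 1) := h4
      _ = Real.pi * 1 * 1 * (bet ^ k - 1) := by ring
      _ ≤ Real.pi * |a| * bet ^ n * (bet ^ k - 1) := by gcongr
  constructor
  · have e : Real.pi * a * bet ^ (n + k) - Real.pi * a * bet ^ n =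
        Real.pi * a * bet ^ n * (bet ^ k - 1) := by rw [pow_add]; ring
    rw [e, abs_mul, abs_mul, abs_mul, abs_of_pos Real.pi_pos, abs_of_nonneg h5,
      abs_of_pos (by linarith : 0 < bet ^ n)]
    exact h6
  · have e : Real.pi * a * bet ^ (n + k) + Real.pi * a * bet ^ n =
        Real.pi * a * bet ^ n * (bet ^ k + 1) := by rw [pow_add]; ring
    rw [e, abs_mul, abs_mul, abs_mul, abs_of_pos Real.pi_pos,
      abs_of_nonneg (by linarith : 0 ≤ bet ^ k + 1),
      abs_of_pos (by linarith : 0 < bet ^ n)]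
    refine h6.trans ?_
    gcongr
    linarith

lemma charFun_re (t : ℝ) : (charFun (gaussianReal 0 1) t).re = Real.exp (-(t ^ 2 / 2)) := by
  rw [charFun_gaussianReal]
  have : (t : ℂ) * ((0 : ℝ) : ℂ) * Complex.I - ((1 : NNReal) : ℂ) * (t : ℂ) ^ 2 / 2 =
      ((-(t ^ 2 / 2) : ℝ) : ℂ) := by
    push_cast
    ring
  rw [this, ← Complex.ofReal_exp, Complex.ofReal_re]

end GaussAux

open GaussAux

/-- [GAUSS] the statistic under the standard Gaussian measure, lacunary frequencies. -/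
theorem gauss_stat {a : ℝ} (ha : 1 ≤ |a|) (N : ℕ) (s : ℕ → ℝ) (hs : ∀ m, |s m| ≤ 1) :
    ∫ x, (∑ m ∈ Finset.range N, s m * Real.cos (Real.pi * a * bet ^ m * x)) ^ 2
      ∂(gaussianReal 0 1) ≤ 100 * N := by
  rw [integral_stat_sq N s fun m => Real.pi * a * bet ^ m]
  have h1 : ∀ m n : ℕ, s m * s n *
      (((charFun (gaussianReal 0 1) (Real.pi * a * bet ^ m - Real.pi * a * bet ^ n)).re +
        (charFun (gaussianReal 0 1) (Real.pi * a * bet ^ m + Real.pi * a * bet ^ n)).re) / 2) ≤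
      (1 / 2) ^ nd m n := by
    intro m n
    rw [charFun_re, charFun_re]
    have hst : s m * s n ≤ 1 := by
      have h2 : |s m * s n| ≤ 1 := by
        rw [abs_mul]
        exact mul_le_one₀ (hs m) (abs_nonneg _) (hs n)
      exact (le_abs_self _).trans h2
    have hb : 2 * (nd m n : ℝ) ≤ |Real.pi * a * bet ^ m - Real.pi * a * bet ^ n| ∧
        2 * (nd m n : ℝ) ≤ |Real.pi * a * bet ^ m + Real.pi * a * bet ^ n| := by
      rcases le_total n m with h | h
      · exact abs_diff_ge ha h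
      · obtain ⟨h3, h4⟩ := abs_diff_ge ha h
        rw [nd_comm n m] at h3 h4
        rw [abs_sub_comm, add_comm (Real.pi * a * bet ^ m)]
        exact ⟨h3, h4⟩
    have h5 := exp_bound hb.1
    have h6 := exp_bound hb.2
    have h7 := Real.exp_pos (-((Real.pi * a * bet ^ m - Real.pi * a * bet ^ n) ^ 2 / 2))
    have h8 := Real.exp_pos (-((Real.pi * a * bet ^ m + Real.pi * a * bet ^ n) ^ 2 / 2))
    nlinarith
  calc ∑ m ∈ Finset.range N, ∑ n ∈ Finset.range N, s m * s n *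
      (((charFun (gaussianReal 0 1) (Real.pi * a * bet ^ m - Real.pi * a * bet ^ n)).re +
        (charFun (gaussianReal 0 1) (Real.pi * a * bet ^ m + Real.pi * a * bet ^ n)).re) / 2)
      ≤ ∑ m ∈ Finset.range N, ∑ n ∈ Finset.range N, ((1 : ℝ) / 2) ^ nd m n :=
        Finset.sum_le_sum fun m _ => Finset.sum_le_sum fun n _ => h1 m n
    _ ≤ ∑ m ∈ Finset.range N, (3 : ℝ) := Finset.sum_le_sum fun m _ => sum_nd m N
    _ = 3 * N := by rw [Finset.sum_const, Finset.card_range, nsmul_eq_mul]; ring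
    _ ≤ 100 * N := by
      have : (0 : ℝ) ≤ N := Nat.cast_nonneg N
      linarith

end Vale.Agent.P105
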