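import Vale.Agent.P105.Salem.Grow
import Vale.Agent.P105.Salem.Crit
import Vale.Agent.P105.Salem.Gauss

open MeasureTheory ProbabilityTheory Filter
open scoped ENNReal Topology

namespace Vale.Agent.P105

lemma psi_neg (t : ℝ) : psi (-t) = psi t := by
  refine tendsto_nhds_unique (psi_tendsto (-t)) ((psi_tendsto t).congr (fun n => ?_))
  apply Finset.prod_congr rfl
  intro i _
  rw [neg_mul, Real.cos_neg]

variable {a b : ℝ} {z : ℂ} {ρ θ : ℝ} {T L : ℕ}

namespace St

/-- the interaction sum between `bet^(n+k)` and `bet^n` -/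
lemma inter_pos (h : St a b z ρ θ T L) (n k : ℕ) (hk : T ≤ k) (M : ℕ) :
    ∑ i ∈ Finset.range M, |Real.tan (Real.pi * a * bet ^ (n + k) * lmb ^ i) *
      Real.tan (Real.pi * a * bet ^ n * lmb ^ i)| ≤ (n + 1) * ρ ^ 2 + ρ / 2 + ρ * T + 2 / T := by
  have hρ0 := h.hρ0
  have h100 : (100 : ℝ) ≤ T := by exact_mod_cast h.hT100
  have h100' := h.hT100
  set f : ℕ → ℝ := fun i => |Real.tan (Real.pi * a * bet ^ (n + k) * lmb ^ i) *
      Real.tan (Real.pi * a * bet ^ n * lmb ^ i)| with hf
  have h3 : ∑ i ∈ Finset.range M, f i ≤ ∑ i ∈ Finset.range (n + 1 + M), f i :=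
    Finset.sum_le_sum_of_subset_of_nonneg (Finset.range_subset_range.mpr (by omega))
      (fun i _ _ => abs_nonneg _)
  refine h3.trans ?_
  rw [Finset.sum_range_add]
  have hk1 : lmb ^ k ≤ 1 / T := by
    have hk20 : 20 ≤ k := by omega
    refine (lmb_pow_le_inv_cube k hk20).trans ?_
    have hkT : (T : ℝ) ≤ k := by exact_mod_cast hk
    have hk0 : (1 : ℝ) ≤ k := by linarith
    apply one_div_le_one_div_of_le (by linarith)
    refine hkT.trans ?_
    exact le_self_pow₀ hk0 (by norm_num)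
  have hk0 : 0 ≤ lmb ^ k := pow_nonneg lmb_pos.le k
  have h4 : ∑ i ∈ Finset.range (n + 1), f i ≤ (n + 1) * ρ ^ 2 + ρ / 2 + 1 / T := by
    have h5 : ∀ i ∈ Finset.range (n + 1), f i ≤
        ρ ^ 2 + (ρ / 5 + lmb ^ k / 100) * lmb ^ (n + 1 - 1 - i) := by
      intro i hi
      rw [Finset.mem_range] at hi
      have e1 : Real.pi * a * bet ^ (n + k) * lmb ^ i = Real.pi * a * bet ^ (n - i + k) := by
        rw [mul_assoc, bet_pow_mul_lmb_pow_le (by omega)]
        congr 2
        omega
      have e2 : Real.pi * a * bet ^ n * lmb ^ i = Real.pi * a * bet ^ (n - i) := by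
        rw [mul_assoc, bet_pow_mul_lmb_pow_le (by omega)]
      simp only [hf]
      rw [e1, e2, abs_mul, Nat.add_sub_cancel]
      have g1 := h.tan_bet (n - i + k)
      have g2 := h.tan_bet (n - i)
      rw [pow_add lmb] at g1
      have g3 : 0 ≤ lmb ^ (n - i) := pow_nonneg lmb_pos.le _
      have g4 : lmb ^ (n - i) ≤ 1 := pow_le_one₀ lmb_pos.le lmb_lt_one.le
      have g5 : lmb ^ k ≤ 1 := pow_le_one₀ lmb_pos.le lmb_lt_one.le
      have g6 := mul_le_mul g1 g2 (abs_nonneg _)
        (by have := mul_nonneg g3 hk0; linarith)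
      refine g6.trans ?_
      have g7 : lmb ^ (n - i) * lmb ^ k ≤ lmb ^ (n - i) := mul_le_of_le_one_right g3 g5
      have g8 : lmb ^ (n - i) * lmb ^ k * lmb ^ (n - i) ≤ lmb ^ (n - i) * lmb ^ k * 1 :=
        mul_le_mul_of_nonneg_left g4 (by positivity)
      nlinarith
    refine (Finset.sum_le_sum h5).trans ?_
    rw [Finset.sum_add_distrib, Finset.sum_const, Finset.card_range, nsmul_eq_mul,
      ← Finset.mul_sum]
    have h6 := geom_lmb_rev (n + 1)
    have h7 : (ρ / 5 + lmb ^ k / 100) * ∑ i ∈ Finset.range (n + 1), lmb ^ (n + 1 - 1 - i)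
        ≤ (ρ / 5 + lmb ^ k / 100) * 2.14 := mul_le_mul_of_nonneg_left h6 (by positivity)
    rw [Nat.cast_add, Nat.cast_one]
    have hT0 : (0 : ℝ) ≤ 1 / T := by positivity
    linarith
  have h5 : ∑ i ∈ Finset.range M, f (n + 1 + i) ≤ ρ * T + 1 / T := by
    refine le_trans (le_of_eq ?_) (h.inter k hk M)
    apply Finset.sum_congr rfl
    intro i _
    have e1 : Real.pi * a * bet ^ (n + k) * lmb ^ (n + 1 + i)
        = Real.pi * a * bet ^ k * lmb ^ (i + 1) := by
      rw [pow_add, show n + 1 + i = n + (i + 1) by ring, pow_add lmb]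
      have : bet ^ n * lmb ^ n = 1 := by rw [← mul_pow, bet_mul_lmb, one_pow]
      calc Real.pi * a * (bet ^ n * bet ^ k) * (lmb ^ n * lmb ^ (i + 1))
          = Real.pi * a * bet ^ k * lmb ^ (i + 1) * (bet ^ n * lmb ^ n) := by ring
        _ = _ := by rw [this, mul_one]
    have e2 : Real.pi * a * bet ^ n * lmb ^ (n + 1 + i) = Real.pi * a * lmb ^ (i + 1) := by
      rw [mul_assoc, bet_pow_mul_lmb_pow_ge (by omega)]
      congr 2
      omega
    simp only [hf]
    rw [e1, e2]
  have e : (2 : ℝ) / T = 1 / T + 1 / T := by ring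
  linarith

/-- covariance bound for far apart indices -/
lemma cov_far (h : St a b z ρ θ T L) {S : ℝ} (n k : ℕ) (hk : T ≤ k)
    (hS : (n + 1) * ρ ^ 2 + ρ / 2 + ρ * T + 2 / T ≤ S) :
    |(psi (Real.pi * a * bet ^ (n + k) - Real.pi * a * bet ^ n) +
      psi (Real.pi * a * bet ^ (n + k) + Real.pi * a * bet ^ n)) / 2 -
      psi (Real.pi * a * bet ^ (n + k)) * psi (Real.pi * a * bet ^ n)|
    ≤ |psi (Real.pi * a * bet ^ (n + k)) * psi (Real.pi * a * bet ^ n)| * (Real.exp S - 1) := by
  have hs : ∀ M, ∑ i ∈ Finset.range M, |Real.tan (Real.pi * a * bet ^ (n + k) * lmb ^ i) *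
      Real.tan (Real.pi * a * bet ^ n * lmb ^ i)| ≤ S := fun M =>
    (h.inter_pos n k hk M).trans hS
  have h1 := psi_sub_mul _ _ S (fun i => cos_bet_lmb_ne h.int (n + k) i)
    (fun i => cos_bet_lmb_ne h.int n i) hs
  have h2 := psi_add_mul _ _ S (fun i => cos_bet_lmb_ne h.int (n + k) i)
    (fun i => cos_bet_lmb_ne h.int n i) hs
  rw [abs_le] at h1 h2 ⊢
  constructor <;> linarith [h1.1, h1.2, h2.1, h2.2]

end St

/-- covariance bound, any two indices `< N`. -/
lemma St.cov (h : St a b z ρ θ T L) {S : ℝ} {N : ℕ} (hS : N * ρ ^ 2 + ρ / 2 + ρ * T + 2 / T ≤ S)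
    {m n : ℕ} (hm : m < N) (hn : n < N) :
    |(psi (Real.pi * a * bet ^ m - Real.pi * a * bet ^ n) +
      psi (Real.pi * a * bet ^ m + Real.pi * a * bet ^ n)) / 2 -
      psi (Real.pi * a * bet ^ m) * psi (Real.pi * a * bet ^ n)|
    ≤ (if n ∈ Finset.Ico (m + 1 - T) (m + T) then 2 else 0) +
      |psi (Real.pi * a * bet ^ m)| * |psi (Real.pi * a * bet ^ n)| * (Real.exp S - 1) := by
  have hρ0 := h.hρ0
  have hS0 : 0 ≤ S := le_trans (by positivity) hS
  have hexp : 0 ≤ Real.exp S - 1 := by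
    have := Real.add_one_le_exp S
    linarith
  have hpos : 0 ≤ |psi (Real.pi * a * bet ^ m)| * |psi (Real.pi * a * bet ^ n)| *
    (Real.exp S - 1) := by positivity
  split_ifs with hc
  · -- trivial bound
    have a1 := psi_abs_le_one (Real.pi * a * bet ^ m - Real.pi * a * bet ^ n)
    have a2 := psi_abs_le_one (Real.pi * a * bet ^ m + Real.pi * a * bet ^ n)
    have a3 := psi_abs_le_one (Real.pi * a * bet ^ m)
    have a4 := psi_abs_le_one (Real.pi * a * bet ^ n)
    have a5 : |psi (Real.pi * a * bet ^ m) * psi (Real.pi * a * bet ^ n)| ≤ 1 := by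
      rw [abs_mul]
      exact mul_le_one₀ a3 (abs_nonneg _) a4
    have : |(psi (Real.pi * a * bet ^ m - Real.pi * a * bet ^ n) +
      psi (Real.pi * a * bet ^ m + Real.pi * a * bet ^ n)) / 2 -
      psi (Real.pi * a * bet ^ m) * psi (Real.pi * a * bet ^ n)| ≤ 2 := by
      rw [abs_le] at a1 a2 a5 ⊢
      constructor <;> linarith [a1.1, a1.2, a2.1, a2.2, a5.1, a5.2]
    linarith
  · rw [Finset.mem_Ico, not_and_or, not_le, not_lt] at hc
    rw [zero_add]
    rcases hc with hc | hc
    · -- `n + T ≤ m`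
      obtain ⟨k, hk⟩ := Nat.exists_eq_add_of_le (show n ≤ m by omega)
      subst hk
      have hk : T ≤ k := by omega
      have h1 := h.cov_far (S := S) n k hk (by
        refine le_trans ?_ hS
        have : (n + 1 : ℝ) ≤ N := by exact_mod_cast hn
        have := mul_le_mul_of_nonneg_right this (sq_nonneg ρ)
        linarith)
      rw [abs_mul (psi _) (psi _)] at h1
      exact h1
    · obtain ⟨k, hk⟩ := Nat.exists_eq_add_of_le (show m ≤ n by omega)
      subst hk
      have hk : T ≤ k := by omega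
      have h1 := h.cov_far (S := S) m k hk (by
        refine le_trans ?_ hS
        have : (m + 1 : ℝ) ≤ N := by exact_mod_cast hm
        have := mul_le_mul_of_nonneg_right this (sq_nonneg ρ)
        linarith)
      rw [abs_mul (psi _) (psi _), mul_comm |psi (Real.pi * a * bet ^ (m + k))|] at h1
      have e1 : psi (Real.pi * a * bet ^ m - Real.pi * a * bet ^ (m + k))
          = psi (Real.pi * a * bet ^ (m + k) - Real.pi * a * bet ^ m) := by
        rw [← psi_neg]
        congr 1
        ring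
      rw [e1, add_comm (Real.pi * a * bet ^ m) (Real.pi * a * bet ^ (m + k)),
        mul_comm (psi (Real.pi * a * bet ^ m)) (psi (Real.pi * a * bet ^ (m + k)))]
      exact h1

end Vale.Agent.P105
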