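import Mathlib

namespace Vale.Agent.P105

/-- A Pisot number: a real algebraic integer `> 1` all of whose other Galois conjugates (the
complex roots of its minimal polynomial over `ℚ`, other than the number itself) have
modulus `< 1`. -/
def IsPisot (x : ℝ) : Prop :=
  1 < x ∧ IsIntegral ℤ x ∧
    ∀ z : ℂ, Polynomial.aeval z (minpoly ℚ x) = 0 → z ≠ (x : ℂ) → ‖z‖ < 1

end Vale.Agent.P105
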