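import Vale.Agent.P105.CharFun
import Vale.Agent.P105.Salem.Pisot

open MeasureTheory ProbabilityTheory Filter
open scoped ENNReal Topology

namespace Vale.Agent.P105

/-- A measure on `ℝ` is singular if it gives full mass to a Borel set of Lebesgue measure zero. -/
def IsSingular (ν : Measure ℝ) : Prop :=
  ∃ A : Set ℝ, MeasurableSet A ∧ ν Aᶜ = 0 ∧ volume A = 0

/-- the Salem number `1.8832...`, the largest root of `x^4 - 2x^3 + x^2 - 2x + 1` -/
noncomputable def bet : ℝ := (1 + √2 + √(2 * √2 - 1)) / 2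

/-- `1 / bet` -/
noncomputable def lmb : ℝ := bet⁻¹

/-- the conjugate of `bet` on the unit circle -/
noncomputable def alp : ℂ := ⟨(1 - √2) / 2, √(1 + 2 * √2) / 2⟩

/-- the (real) Fourier transform of the Bernoulli convolution with parameter `lmb` -/
noncomputable def psi (t : ℝ) : ℝ := (charFun (bernoulliConv lmb) t).re

/-- One state of the recursion. -/
structure St (a b : ℝ) (z : ℂ) (ρ θ : ℝ) (T L : ℕ) : Prop where
  int : IsIntegral ℤ a
  one_le : 1 ≤ |a|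
  tr : ∀ j : ℕ, ∃ n : ℤ, a * bet ^ j + b * lmb ^ j + 2 * (z * alp ^ j).re = n
  hz : 16 * ‖z‖ ≤ ρ
  hb : 8 * |b| ≤ 1 / 10
  ha : 8 * |a| ≤ bet ^ L
  hL : 2 * L ≤ T
  hT : ∀ n : ℕ, ∑ i ∈ Finset.range n, |Real.tan (Real.pi * a * lmb ^ (i + 1))| ≤ T
  hθ : θ ≤ |psi (Real.pi * a * lmb)|
  hθ0 : 0 < θ
  hρ0 : 0 < ρ
  hρ : ρ ≤ 1 / 30000
  hρT : ρ ^ 3 * (T : ℝ) ^ 4 ≤ 1
  hT100 : 100 ≤ T

end Vale.Agent.P105
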