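import Vale.Agent.P105.Salem.Psi

open MeasureTheory ProbabilityTheory Filter
open scoped ENNReal Topology

namespace Vale.Agent.P105

/-! ### general trigonometric facts -/

lemma abs_tan_pi_le {e : ℝ} (he : |e| ≤ 1 / 4) : |Real.tan (Real.pi * e)| ≤ 8 * |e| := by
  have hpi : Real.pi < 3.15 := Real.pi_lt_d2
  have hpi0 := Real.pi_pos
  have h1 : |Real.pi * e| ≤ 3.15 / 4 := by
    rw [abs_mul, abs_of_pos hpi0]
    nlinarith [abs_nonneg e]
  have h2 : (Real.pi * e) ^ 2 ≤ (3.15 / 4) ^ 2 := by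
    rw [← sq_abs]
    exact pow_le_pow_left₀ (abs_nonneg _) h1 2
  have h3 : (1 : ℝ) / 2 ≤ Real.cos (Real.pi * e) := by
    have := Real.one_sub_sq_div_two_le_cos (x := Real.pi * e)
    norm_num at h2 ⊢
    linarith
  have h4 : |Real.sin (Real.pi * e)| ≤ Real.pi * |e| := by
    refine (Real.abs_sin_le_abs).trans ?_
    rw [abs_mul, abs_of_pos hpi0]
  rw [Real.tan_eq_sin_div_cos, abs_div, abs_of_pos (by linarith : 0 < Real.cos (Real.pi * e)),
    div_le_iff₀ (by linarith)]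
  nlinarith [abs_nonneg e]

lemma tan_pi_int_sub (n : ℤ) (e : ℝ) :
    |Real.tan (Real.pi * ((n : ℝ) - e))| = |Real.tan (Real.pi * e)| := by
  have h : Real.pi * ((n : ℝ) - e) = -(Real.pi * e) + n * Real.pi := by ring
  rw [h, Real.tan_add_int_mul_pi, Real.tan_neg, abs_neg]

lemma cos_pi_int_sub (n : ℤ) (e : ℝ) :
    |Real.cos (Real.pi * ((n : ℝ) - e))| = |Real.cos (Real.pi * e)| := by
  have h : Real.pi * ((n : ℝ) - e) = -(Real.pi * e) + n * Real.pi := by ring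
  rw [h, Real.cos_add_int_mul_pi, abs_mul, Real.cos_neg]
  simp

lemma prod_ge_one_sub_sum (f b : ℕ → ℝ) (n : ℕ) (hb : ∀ i < n, 0 ≤ b i)
    (h : ∀ i < n, 1 - b i ≤ f i) (hf0 : ∀ i < n, 0 ≤ f i) (hf1 : ∀ i < n, f i ≤ 1) :
    1 - ∑ i ∈ Finset.range n, b i ≤ ∏ i ∈ Finset.range n, f i ∧
      0 ≤ ∏ i ∈ Finset.range n, f i ∧ ∏ i ∈ Finset.range n, f i ≤ 1 := by
  induction n with
  | zero => simp
  | succ n ih =>
    obtain ⟨i1, i2, i3⟩ := ih (fun i hi => hb i (by omega)) (fun i hi => h i (by omega))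
      (fun i hi => hf0 i (by omega)) (fun i hi => hf1 i (by omega))
    have a1 := hb n (by omega)
    have a2 := h n (by omega)
    have a3 := hf0 n (by omega)
    have a4 := hf1 n (by omega)
    rw [Finset.prod_range_succ, Finset.sum_range_succ]
    refine ⟨?_, mul_nonneg i2 a3, ?_⟩
    · nlinarith
    · nlinarith

lemma geom_lmb (n : ℕ) : ∑ i ∈ Finset.range n, lmb ^ i ≤ 2.14 := by
  have h1 : lmb ≠ 1 := lmb_lt_one.ne
  have h := geom_sum_eq h1 n
  rw [h]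
  have h2 : (0 : ℝ) < 1 - lmb := by linarith [lmb_lt_one]
  have h3 : (lmb ^ n - 1) / (lmb - 1) = (1 - lmb ^ n) / (1 - lmb) := by
    rw [← neg_div_neg_eq]
    congr 1 <;> ring
  rw [h3, div_le_iff₀ h2]
  have h4 : 0 ≤ lmb ^ n := pow_nonneg lmb_pos.le n
  nlinarith [lmb_lt]

lemma geom_lmb_sq (n : ℕ) : ∑ i ∈ Finset.range n, (lmb ^ i) ^ 2 ≤ 1.4 := by
  have h1 : lmb ^ 2 < 1 := by nlinarith [lmb_pos, lmb_lt_one]
  have h := geom_sum_eq h1.ne n
  have h0 : ∀ i, (lmb ^ i) ^ 2 = (lmb ^ 2) ^ i := fun i => by rw [← pow_mul, ← pow_mul, mul_comm]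
  simp_rw [h0]
  rw [h]
  have h2 : (0 : ℝ) < 1 - lmb ^ 2 := by linarith
  have h3 : ((lmb ^ 2) ^ n - 1) / (lmb ^ 2 - 1) = (1 - (lmb ^ 2) ^ n) / (1 - lmb ^ 2) := by
    rw [← neg_div_neg_eq]
    congr 1 <;> ring
  rw [h3, div_le_iff₀ h2]
  have h4 : 0 ≤ (lmb ^ 2) ^ n := by positivity
  nlinarith [lmb_lt, lmb_pos]

lemma geom_lmb_rev (n : ℕ) : ∑ i ∈ Finset.range n, lmb ^ (n - 1 - i) ≤ 2.14 := by
  rw [Finset.sum_range_reflect (fun i => lmb ^ i) n]
  exact geom_lmb n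

lemma bet_pow_mul_lmb_pow_le {i t : ℕ} (h : i ≤ t) : bet ^ t * lmb ^ i = bet ^ (t - i) := by
  obtain ⟨k, rfl⟩ := Nat.exists_eq_add_of_le h
  rw [pow_add, Nat.add_sub_cancel_left]
  have : bet ^ i * lmb ^ i = 1 := by rw [← mul_pow, bet_mul_lmb, one_pow]
  calc bet ^ i * bet ^ k * lmb ^ i = (bet ^ i * lmb ^ i) * bet ^ k := by ring
    _ = bet ^ k := by rw [this, one_mul]

lemma bet_pow_mul_lmb_pow_ge {i t : ℕ} (h : t ≤ i) : bet ^ t * lmb ^ i = lmb ^ (i - t) := by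
  obtain ⟨k, rfl⟩ := Nat.exists_eq_add_of_le h
  rw [pow_add, Nat.add_sub_cancel_left]
  have : bet ^ t * lmb ^ t = 1 := by rw [← mul_pow, bet_mul_lmb, one_pow]
  calc bet ^ t * (lmb ^ t * lmb ^ k) = (bet ^ t * lmb ^ t) * lmb ^ k := by ring
    _ = lmb ^ k := by rw [this, one_mul]

lemma lmb_pow_le_inv_cube (k : ℕ) (hk : 20 ≤ k) : lmb ^ k ≤ 1 / (k : ℝ) ^ 3 := by
  induction k, hk using Nat.le_induction with
  | base =>
    have h1 : lmb ^ 20 ≤ (0.5311 : ℝ) ^ 20 := pow_le_pow_left₀ lmb_pos.le lmb_lt.le 20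
    refine h1.trans ?_
    norm_num
  | succ k hk ih =>
    have hk' : (20 : ℝ) ≤ k := by exact_mod_cast hk
    have hk0 : (0 : ℝ) < k := by linarith
    rw [pow_succ]
    have h1 : lmb ^ k * lmb ≤ 1 / (k : ℝ) ^ 3 * 0.5311 :=
      mul_le_mul ih lmb_lt.le lmb_pos.le (by positivity)
    refine h1.trans ?_
    push_cast
    rw [one_div_mul_eq_div, div_le_div_iff₀ (by positivity) (by positivity)]
    have h2 : (k + 1 : ℝ) ≤ 1.05 * k := by linarith
    have h3 : (k + 1 : ℝ) ^ 3 ≤ (1.05 * k) ^ 3 := pow_le_pow_left₀ (by positivity) h2 3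
    have h4 : (0 : ℝ) ≤ (k : ℝ) ^ 3 := by positivity
    have h5 : ((1.05 : ℝ) * k) ^ 3 = 1.157625 * k ^ 3 := by ring
    rw [h5] at h3
    nlinarith

/-- the Fourier transform does not vanish where no factor vanishes -/
lemma psi_ne_zero {t : ℝ} (h : ∀ i : ℕ, Real.cos (t * lmb ^ i) ≠ 0) : psi t ≠ 0 := by
  -- choose `n` with `|t| * lmb^n ≤ 1/2`
  obtain ⟨n, hn⟩ : ∃ n : ℕ, |t * lmb ^ n| ≤ 1 / 2 := by
    have h1 : Tendsto (fun n : ℕ => |t * lmb ^ n|) atTop (𝓝 |t * 0|) :=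
      ((tendsto_pow_atTop_nhds_zero_of_lt_one lmb_pos.le lmb_lt_one).const_mul t).abs
    rw [mul_zero, abs_zero] at h1
    have h2 := h1.eventually (ge_mem_nhds (show (0 : ℝ) < 1 / 2 by norm_num))
    exact h2.exists
  rw [psi_prod t n]
  apply mul_ne_zero
  · exact Finset.prod_ne_zero_iff.mpr fun i _ => h i
  · set s := t * lmb ^ n with hs
    have h1 : ∀ m, (1 : ℝ) / 2 ≤ ∏ i ∈ Finset.range m, Real.cos (s * lmb ^ i) := by
      intro m
      have hc : ∀ i, 1 - (lmb ^ i) ^ 2 / 8 ≤ Real.cos (s * lmb ^ i) := by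
        intro i
        have := Real.one_sub_sq_div_two_le_cos (x := s * lmb ^ i)
        have h2 : (s * lmb ^ i) ^ 2 = s ^ 2 * (lmb ^ i) ^ 2 := by ring
        have h3 : s ^ 2 ≤ 1 / 4 := by
          rw [← sq_abs]
          nlinarith [abs_nonneg s]
        have h4 : 0 ≤ (lmb ^ i) ^ 2 := sq_nonneg _
        rw [h2] at this
        nlinarith
      have hle : ∀ i, (lmb ^ i) ^ 2 ≤ 1 := fun i => by
        have h5 : lmb ^ i ≤ 1 := pow_le_one₀ lmb_pos.le lmb_lt_one.le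
        have h6 : 0 ≤ lmb ^ i := pow_nonneg lmb_pos.le i
        nlinarith
      have h2 := (prod_ge_one_sub_sum (fun i => Real.cos (s * lmb ^ i))
        (fun i => (lmb ^ i) ^ 2 / 8) m (fun i _ => by positivity) (fun i _ => hc i)
        (fun i _ => by linarith [hc i, hle i]) (fun i _ => Real.cos_le_one _)).1
      refine le_trans ?_ h2
      rw [← Finset.sum_div]
      have := geom_lmb_sq m
      linarith
    have h2 := ge_of_tendsto' (psi_tendsto s) h1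
    linarith

/-! ### consequences of a state -/

variable {a b : ℝ} {z : ℂ} {ρ θ : ℝ} {T L : ℕ}

lemma cos_lmb_ne (ha : IsIntegral ℤ a) (i : ℕ) : Real.cos (Real.pi * a * lmb ^ i) ≠ 0 := by
  rw [mul_assoc]
  exact cos_ne_of_integral (ha.mul (lmb_integral.pow i))

lemma cos_bet_ne (ha : IsIntegral ℤ a) (i : ℕ) : Real.cos (Real.pi * a * bet ^ i) ≠ 0 := by
  rw [mul_assoc]
  exact cos_ne_of_integral (ha.mul (bet_integral.pow i))

lemma cos_bet_lmb_ne (ha : IsIntegral ℤ a) (j i : ℕ) :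
    Real.cos (Real.pi * a * bet ^ j * lmb ^ i) ≠ 0 := by
  rw [mul_assoc, mul_assoc]
  exact cos_ne_of_integral (ha.mul ((bet_integral.pow j).mul (lmb_integral.pow i)))

lemma psi_ne_zero_of_integral (ha : IsIntegral ℤ a) : psi (Real.pi * a * lmb) ≠ 0 := by
  apply psi_ne_zero
  intro i
  rw [mul_assoc _ lmb, ← pow_succ']
  exact cos_lmb_ne ha (i + 1)

namespace St

variable (h : St a b z ρ θ T L)
include h

lemma rho_T : ρ * T ≤ 8 / 100 := by
  have h1 := h.hρT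
  have h2 : (ρ * T) ^ 4 = ρ * (ρ ^ 3 * T ^ 4) := by ring
  have h3 : (ρ * T) ^ 4 ≤ ρ := by
    rw [h2]
    exact mul_le_of_le_one_right h.hρ0.le h1
  by_contra hc
  push Not at hc
  have h4 : (8 / 100 : ℝ) ^ 4 ≤ (ρ * T) ^ 4 := pow_le_pow_left₀ (by norm_num) hc.le 4
  have h5 := h.hρ
  norm_num at h4
  linarith

lemma near (j : ℕ) : ∃ (n : ℤ) (e : ℝ), a * bet ^ j = n - e ∧ |e| ≤ (ρ + lmb ^ j / 10) / 8 := by
  obtain ⟨n, hn⟩ := h.tr j
  refine ⟨n, b * lmb ^ j + 2 * (z * alp ^ j).re, by linarith, ?_⟩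
  have h1 : |(z * alp ^ j).re| ≤ ‖z‖ := by
    refine (Complex.abs_re_le_norm _).trans ?_
    rw [norm_mul, norm_pow, norm_alp, one_pow, mul_one]
  have h2 : |b * lmb ^ j| = |b| * lmb ^ j := by
    rw [abs_mul, abs_of_nonneg (pow_nonneg lmb_pos.le j)]
  have h3 := abs_add_le (b * lmb ^ j) (2 * (z * alp ^ j).re)
  rw [abs_mul 2, abs_two, h2] at h3
  have h4 := h.hz
  have h5 := h.hb
  have h6 : 0 ≤ lmb ^ j := pow_nonneg lmb_pos.le j
  nlinarith

lemma tan_bet (j : ℕ) : |Real.tan (Real.pi * a * bet ^ j)| ≤ ρ + lmb ^ j / 10 := by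
  obtain ⟨n, e, he, hb⟩ := h.near j
  rw [mul_assoc, he, tan_pi_int_sub]
  have h1 : lmb ^ j ≤ 1 := pow_le_one₀ lmb_pos.le lmb_lt_one.le
  have h2 := h.hρ
  have h3 := abs_tan_pi_le (e := e) (by linarith)
  linarith

lemma cos_bet (j : ℕ) :
    1 - (ρ + lmb ^ j / 10) ^ 2 / 12 ≤ |Real.cos (Real.pi * a * bet ^ j)| := by
  obtain ⟨n, e, he, hb⟩ := h.near j
  rw [mul_assoc, he, cos_pi_int_sub]
  have h1 := Real.one_sub_sq_div_two_le_cos (x := Real.pi * e)
  have h2 := le_abs_self (Real.cos (Real.pi * e))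
  have h3 : e ^ 2 ≤ ((ρ + lmb ^ j / 10) / 8) ^ 2 := by
    rw [← sq_abs]
    exact pow_le_pow_left₀ (abs_nonneg _) hb 2
  have hpi : Real.pi < 3.15 := Real.pi_lt_d2
  have hpi2 : Real.pi ^ 2 ≤ 3.15 ^ 2 := pow_le_pow_left₀ Real.pi_pos.le hpi.le 2
  have h5 : (Real.pi * e) ^ 2 = Real.pi ^ 2 * e ^ 2 := by ring
  rw [h5] at h1
  have h6 : Real.pi ^ 2 * e ^ 2 ≤ 3.15 ^ 2 * ((ρ + lmb ^ j / 10) / 8) ^ 2 :=
    mul_le_mul hpi2 h3 (sq_nonneg _) (by positivity)
  have h7 : 0 ≤ (ρ + lmb ^ j / 10) ^ 2 := sq_nonneg _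
  nlinarith

/-- products of cosines over the quiet region -/
lemma prod_cos (n : ℕ) (hn : ρ ^ 2 * n ≤ 1 + ρ ^ 2) :
    (8 : ℝ) / 10 ≤ ∏ j ∈ Finset.range n, |Real.cos (Real.pi * a * bet ^ j)| := by
  have hρ := h.hρ
  have hρ0 := h.hρ0
  have hsum : ∑ j ∈ Finset.range n, (ρ + lmb ^ j / 10) ^ 2 / 12 ≤ 0.18 := by
    have h1 : ∀ j ∈ Finset.range n, (ρ + lmb ^ j / 10) ^ 2 / 12
        ≤ (2 * ρ ^ 2 + 2 / 100 * (lmb ^ j) ^ 2) / 12 := by
      intro j _
      have := sq_nonneg (ρ - lmb ^ j / 10)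
      nlinarith
    refine (Finset.sum_le_sum h1).trans ?_
    rw [← Finset.sum_div, Finset.sum_add_distrib, Finset.sum_const, Finset.card_range,
      nsmul_eq_mul, ← Finset.mul_sum]
    have h2 := geom_lmb_sq n
    have h3 : ρ ^ 2 ≤ 1 / 1000 := by nlinarith
    rw [div_le_iff₀ (by norm_num)]
    nlinarith
  have hb1 : ∀ j : ℕ, (ρ + lmb ^ j / 10) ^ 2 / 12 ≤ 1 := by
    intro j
    have h1 : lmb ^ j ≤ 1 := pow_le_one₀ lmb_pos.le lmb_lt_one.le
    have h2 : 0 ≤ lmb ^ j := pow_nonneg lmb_pos.le j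
    nlinarith
  have h2 := (prod_ge_one_sub_sum (fun j => |Real.cos (Real.pi * a * bet ^ j)|)
    (fun j => (ρ + lmb ^ j / 10) ^ 2 / 12) n (fun j _ => by positivity)
    (fun j _ => h.cos_bet j) (fun j _ => abs_nonneg _) (fun j _ => Real.abs_cos_le_one _)).1
  linarith

lemma tan_lmb {i : ℕ} (hi : L ≤ i) : |Real.tan (Real.pi * a * lmb ^ i)| ≤ lmb ^ (i - L) := by
  have h1 : |a * lmb ^ i| ≤ lmb ^ (i - L) / 8 := by
    rw [← bet_pow_mul_lmb_pow_ge hi, abs_mul, abs_of_nonneg (pow_nonneg lmb_pos.le i)]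
    have := mul_le_mul_of_nonneg_right h.ha (pow_nonneg lmb_pos.le i)
    linarith
  have h2 : lmb ^ (i - L) ≤ 1 := pow_le_one₀ lmb_pos.le lmb_lt_one.le
  rw [mul_assoc]
  have h3 := abs_tan_pi_le (e := a * lmb ^ i) (by linarith)
  linarith

/-- the interaction sum over negative indices -/
lemma inter (t : ℕ) (ht : T ≤ t) (n : ℕ) :
    ∑ i ∈ Finset.range n, |Real.tan (Real.pi * a * bet ^ t * lmb ^ (i + 1)) *
      Real.tan (Real.pi * a * lmb ^ (i + 1))| ≤ ρ * T + 1 / T := by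
  have hT100 : (100 : ℝ) ≤ T := by exact_mod_cast h.hT100
  have hρ := h.hρ
  have hρ0 := h.hρ0
  have hLT := h.hL
  have hL100 := h.hT100
  set u : ℕ → ℝ := fun i => |Real.tan (Real.pi * a * lmb ^ (i + 1))| with hu
  have hu0 : ∀ i, 0 ≤ u i := fun i => abs_nonneg _
  set f : ℕ → ℝ := fun i => |Real.tan (Real.pi * a * bet ^ t * lmb ^ (i + 1)) *
      Real.tan (Real.pi * a * lmb ^ (i + 1))| with hf
  have hf0 : ∀ i, 0 ≤ f i := fun i => abs_nonneg _
  set q := lmb ^ (t - L) with hq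
  have hq0 : 0 ≤ q := pow_nonneg lmb_pos.le _
  -- first range
  have h1 : ∀ i < t, f i ≤ ρ * u i + q * (u i + 1) := by
    intro i hi
    have e1 : Real.pi * a * bet ^ t * lmb ^ (i + 1) = Real.pi * a * bet ^ (t - (i + 1)) := by
      rw [mul_assoc, bet_pow_mul_lmb_pow_le (by omega)]
    simp only [hf, hu]
    rw [e1, abs_mul]
    have e2 := h.tan_bet (t - (i + 1))
    have e3 := mul_le_mul_of_nonneg_right e2 (hu0 i)
    refine e3.trans ?_
    simp only [hu]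
    rw [add_mul]
    apply add_le_add le_rfl
    rcases lt_or_ge (i + 1) L with hiL | hiL
    · -- `i + 1 < L`
      have e4 : lmb ^ (t - (i + 1)) ≤ q :=
        pow_le_pow_of_le_one lmb_pos.le lmb_lt_one.le (by omega)
      have e5 : 0 ≤ |Real.tan (Real.pi * a * lmb ^ (i + 1))| := abs_nonneg _
      have e6 : 0 ≤ lmb ^ (t - (i + 1)) := pow_nonneg lmb_pos.le _
      nlinarith [mul_le_mul_of_nonneg_right e4 e5]
    · have e4 := h.tan_lmb hiL
      have e5 : 0 ≤ |Real.tan (Real.pi * a * lmb ^ (i + 1))| := abs_nonneg _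
      have e6 : 0 ≤ lmb ^ (t - (i + 1)) := pow_nonneg lmb_pos.le _
      have e7 : lmb ^ (t - (i + 1)) * lmb ^ (i + 1 - L) = q := by
        rw [← pow_add, hq]
        congr 1
        omega
      have e8 := mul_le_mul_of_nonneg_left e4 e6
      rw [e7] at e8
      nlinarith [mul_nonneg hq0 e5, mul_nonneg e6 e5]
  -- second range
  have h2 : ∀ k, f (t + k) ≤ q * u k := by
    intro k
    have e1 : Real.pi * a * bet ^ t * lmb ^ (t + k + 1) = Real.pi * a * lmb ^ (k + 1) := by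
      rw [mul_assoc, bet_pow_mul_lmb_pow_ge (by omega)]
      congr 2
      omega
    simp only [hf, hu]
    rw [e1, abs_mul, mul_comm]
    apply mul_le_mul_of_nonneg_right _ (abs_nonneg _)
    refine (h.tan_lmb (by omega)).trans ?_
    exact pow_le_pow_of_le_one lmb_pos.le lmb_lt_one.le (by omega)
  have h3 : ∑ i ∈ Finset.range n, f i ≤ ∑ i ∈ Finset.range (t + n), f i :=
    Finset.sum_le_sum_of_subset_of_nonneg (Finset.range_subset_range.mpr (by omega))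
      (fun i _ _ => hf0 i)
  refine h3.trans ?_
  rw [Finset.sum_range_add]
  have h4 : ∑ i ∈ Finset.range t, f i ≤ ρ * T + q * (T + t) := by
    refine (Finset.sum_le_sum fun i hi => h1 i (Finset.mem_range.mp hi)).trans ?_
    rw [Finset.sum_add_distrib, ← Finset.mul_sum, ← Finset.mul_sum, Finset.sum_add_distrib,
      Finset.sum_const, Finset.card_range, nsmul_eq_mul, mul_one]
    have := h.hT t
    gcongr
  have h5 : ∑ k ∈ Finset.range n, f (t + k) ≤ q * T := by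
    refine (Finset.sum_le_sum fun k _ => h2 k).trans ?_
    rw [← Finset.mul_sum]
    exact mul_le_mul_of_nonneg_left (h.hT n) hq0
  -- the tail
  have h6 : q * (2 * T + t) ≤ 1 / T := by
    set k := t - L with hk
    have hk1 : t ≤ 2 * k := by omega
    have hk2 : 50 ≤ k := by omega
    have hk1' : (t : ℝ) ≤ 2 * k := by exact_mod_cast hk1
    have hk2' : (50 : ℝ) ≤ k := by exact_mod_cast hk2
    have hTt : (T : ℝ) ≤ t := by exact_mod_cast ht
    have h7 := lmb_pow_le_inv_cube k (by omega)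
    have hk0 : (0 : ℝ) < k := by linarith
    have h8 : q * (2 * T + t) ≤ 1 / (k : ℝ) ^ 3 * (6 * k) :=
      mul_le_mul h7 (by linarith) (by positivity) (by positivity)
    refine h8.trans ?_
    have hT2k : (T : ℝ) ≤ 2 * k := hTt.trans hk1'
    rw [div_mul_eq_mul_div, one_mul, div_le_div_iff₀ (by positivity) (by linarith)]
    have : (6 : ℝ) * k * T ≤ 12 * (k * k) := by nlinarith
    have h9 : (12 : ℝ) * (k * k) ≤ 1 * k ^ 3 := by nlinarith [mul_pos hk0 hk0]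
    linarith
  linarith

lemma inter_le (t : ℕ) (ht : T ≤ t) (n : ℕ) :
    ∑ i ∈ Finset.range n, |Real.tan (Real.pi * a * bet ^ t * lmb ^ (i + 1)) *
      Real.tan (Real.pi * a * lmb ^ (i + 1))| ≤ 9 / 100 := by
  refine (h.inter t ht n).trans ?_
  have h1 := h.rho_T
  have hT100 : (100 : ℝ) ≤ T := by exact_mod_cast h.hT100
  have h2 : (1 : ℝ) / T ≤ 1 / 100 := by
    apply div_le_div_of_nonneg_left <;> linarith
  linarith

omit h in
/-- values of `psi` over the quiet region -/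
lemma psi_bet (a : ℝ) (n : ℕ) : psi (Real.pi * a * bet ^ n) =
    (∏ j ∈ Finset.range (n + 1), Real.cos (Real.pi * a * bet ^ j)) * psi (Real.pi * a * lmb) := by
  induction n with
  | zero =>
    have h1 := psi_prod (Real.pi * a) 1
    simp only [Finset.prod_range_one, pow_zero, mul_one, pow_one, zero_add] at h1 ⊢
    exact h1
  | succ n ih =>
    rw [pow_succ, ← mul_assoc, psi_mul_bet, ih, Finset.prod_range_succ _ (n + 1), pow_succ,
      ← mul_assoc (Real.pi * a) (bet ^ n) bet]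
    ring

lemma psi_bet_ge (n : ℕ) (hn : ρ ^ 2 * n ≤ 1) :
    8 / 10 * θ ≤ |psi (Real.pi * a * bet ^ n)| := by
  rw [psi_bet, abs_mul, Finset.abs_prod]
  have h1 := h.prod_cos (n + 1) (by push_cast; linarith)
  have h2 := h.hθ
  have h3 := h.hθ0
  exact mul_le_mul h1 h2 h3.le (by linarith)

end St

end Vale.Agent.P105
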