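import Vale.Agent.P105.Salem.Rec

open MeasureTheory ProbabilityTheory Filter
open scoped ENNReal Topology

namespace Vale.Agent.P105

lemma exp_le_bounds : Real.exp 8 ≤ 30000 ∧ (38416 : ℝ) ≤ Real.exp 15 := by
  have h1 := Real.exp_one_lt_d9
  have h2 := Real.exp_one_gt_d9
  constructor
  · have : Real.exp 8 = Real.exp 1 ^ 8 := by rw [← Real.exp_nat_mul]; norm_num
    rw [this]
    calc Real.exp 1 ^ 8 ≤ (2.7182818286 : ℝ) ^ 8 :=
          pow_le_pow_left₀ (Real.exp_pos 1).le h1.le 8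
      _ ≤ 30000 := by norm_num
  · have : Real.exp 15 = Real.exp 1 ^ 15 := by rw [← Real.exp_nat_mul]; norm_num
    rw [this]
    calc (38416 : ℝ) ≤ (2.7182818283 : ℝ) ^ 15 := by norm_num
      _ ≤ Real.exp 1 ^ 15 := pow_le_pow_left₀ (by norm_num) h2.le 15

/-- iterating the step -/
theorem iterate_step {a b : ℝ} {z : ℂ} {ρ θ : ℝ} {T L : ℕ} (h0 : St a b z ρ θ T L) (n : ℕ) :
    ∃ (a' b' : ℝ) (z' : ℂ) (ρ' θ' : ℝ) (T' L' : ℕ), St a' b' z' ρ' θ' T' L' ∧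
      5 * (9 / 4 : ℝ) ^ n + 3 ≤ -Real.log ρ' ∧
      -Real.log θ' ≤ 2 ^ n * (|Real.log θ| + 1) - 1 ∧ n ≤ T' := by
  induction n with
  | zero =>
    refine ⟨a, b, z, ρ, θ, T, L, h0, ?_, ?_, Nat.zero_le _⟩
    · have h1 : Real.log ρ ≤ Real.log (1 / 30000) := Real.log_le_log h0.hρ0 h0.hρ
      have h2 : (8 : ℝ) ≤ Real.log 30000 := by
        rw [Real.le_log_iff_exp_le (by norm_num)]
        exact exp_le_bounds.1
      rw [one_div, Real.log_inv] at h1
      norm_num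
      linarith
    · have := neg_abs_le (Real.log θ)
      norm_num
      linarith
  | succ n ih =>
    obtain ⟨a1, b1, z1, ρ1, θ1, T1, L1, h1, hρ1, hθ1, hT1⟩ := ih
    obtain ⟨a2, b2, z2, ρ2, T2, L2, h2, hρ2, hT2⟩ := h1.step
    refine ⟨a2, b2, z2, ρ2, θ1 ^ 2 / 2, T2, L2, h2, ?_, ?_, ?_⟩
    · have e1 : Real.log (ρ2 ^ 4) ≤ Real.log (38416 * ρ1 ^ 9) :=
        Real.log_le_log (by have := h2.hρ0; positivity) hρ2
      rw [Real.log_pow, Real.log_mul (by norm_num) (by have := h1.hρ0; positivity),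
        Real.log_pow] at e1
      have e2 : Real.log 38416 ≤ 15 := by
        rw [Real.log_le_iff_le_exp (by norm_num)]
        exact exp_le_bounds.2
      rw [pow_succ]
      push_cast at e1
      nlinarith
    · have hθ0 := h1.hθ0
      rw [Real.log_div (by positivity) (by norm_num), Real.log_pow]
      have e2 : Real.log 2 ≤ 1 := by
        have := Real.log_two_lt_d9
        linarith
      push_cast
      rw [pow_succ]
      nlinarith
    · have := h1.hT100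
      omega

theorem exists_good_of {a b : ℝ} {z : ℂ} {ρ θ : ℝ} {T L : ℕ} (h0 : St a b z ρ θ T L) (M : ℝ) :
    ∃ (a' b' : ℝ) (z' : ℂ) (ρ' θ' : ℝ) (T' L' : ℕ), St a' b' z' ρ' θ' T' L' ∧
      ρ' * M ≤ 1 ∧ ρ' ≤ θ' ^ 4 ∧ M ≤ T' := by
  set K := |Real.log θ| + 1 with hK
  have hK0 : 0 < K := by positivity
  obtain ⟨n1, hn1⟩ := pow_unbounded_of_one_lt (4 * K) (show (1 : ℝ) < 9 / 8 by norm_num)
  obtain ⟨n2, hn2⟩ := pow_unbounded_of_one_lt (|M| + 1) (show (1 : ℝ) < 9 / 8 by norm_num)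
  obtain ⟨n3, hn3⟩ := exists_nat_ge M
  set n := n1 + n2 + n3 with hn
  obtain ⟨a1, b1, z1, ρ1, θ1, T1, L1, h1, hρ1, hθ1, hT1⟩ := iterate_step h0 n
  refine ⟨a1, b1, z1, ρ1, θ1, T1, L1, h1, ?_, ?_, ?_⟩
  · -- `ρ1 * M ≤ 1`
    have hρ0 := h1.hρ0
    have e1 : |M| + 1 ≤ Real.exp (-Real.log ρ1) := by
      have e2 : |M| + 1 ≤ -Real.log ρ1 := by
        have e3 : (9 / 8 : ℝ) ^ n2 ≤ (9 / 4 : ℝ) ^ n := by
          calc (9 / 8 : ℝ) ^ n2 ≤ (9 / 4 : ℝ) ^ n2 :=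
                pow_le_pow_left₀ (by norm_num) (by norm_num) _
            _ ≤ (9 / 4 : ℝ) ^ n := pow_le_pow_right₀ (by norm_num) (by omega)
        have e4 : (0 : ℝ) ≤ (9 / 4 : ℝ) ^ n := by positivity
        linarith
      exact e2.trans (by linarith [Real.add_one_le_exp (-Real.log ρ1)])
    rw [Real.exp_neg, Real.exp_log hρ0] at e1
    have e5 := le_abs_self M
    have e6 : ρ1 * (|M| + 1) ≤ 1 := by
      calc ρ1 * (|M| + 1) ≤ ρ1 * ρ1⁻¹ := mul_le_mul_of_nonneg_left e1 hρ0.le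
        _ = 1 := mul_inv_cancel₀ hρ0.ne'
    nlinarith
  · have hρ0 := h1.hρ0
    have hθ0 := h1.hθ0
    rw [← Real.log_le_log_iff hρ0 (by positivity), Real.log_pow]
    push_cast
    have e1 : 4 * (2 ^ n * K) ≤ (9 / 4 : ℝ) ^ n := by
      have e2 : 4 * K ≤ (9 / 8 : ℝ) ^ n := by
        refine hn1.le.trans ?_
        exact pow_le_pow_right₀ (by norm_num) (by omega)
      have e3 : (9 / 4 : ℝ) ^ n = 2 ^ n * (9 / 8) ^ n := by
        rw [← mul_pow]; norm_num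
      rw [e3]
      have e4 : (0 : ℝ) ≤ 2 ^ n := by positivity
      nlinarith
    have e4 : (0 : ℝ) ≤ (9 / 4 : ℝ) ^ n := by positivity
    nlinarith
  · have : (n : ℝ) ≤ T1 := by exact_mod_cast hT1
    have h3 : (n3 : ℝ) ≤ n := by exact_mod_cast (by omega : n3 ≤ n)
    linarith

end Vale.Agent.P105
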