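import Vale.Agent.P105.Salem.Defs

open MeasureTheory ProbabilityTheory Filter
open scoped ENNReal Topology

namespace Vale.Agent.P105

noncomputable def PI0 (x : ℝ) : ℝ :=
  -372860140033 + 43548757261 * x - 290848967858 * x ^ 2 + 197992484131 * x ^ 3

namespace InitAux

lemma s2 : √(2 : ℝ) ^ 2 = 2 := Real.sq_sqrt (by norm_num)

lemma s_gt : (141421356237309504880168872420969807856967187537694 : ℝ) / 10 ^ 50 < √2 := by
  apply Real.lt_sqrt_of_sq_lt
  norm_num

lemma s_lt : √2 < (141421356237309504880168872420969807856967187537695 : ℝ) / 10 ^ 50 := by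
  rw [Real.sqrt_lt' (by norm_num)]
  norm_num

lemma r2 : √(2 * √2 - 1 : ℝ) ^ 2 = 2 * √2 - 1 := by
  apply Real.sq_sqrt
  have := s_gt
  norm_num at this ⊢
  linarith

lemma r_gt : (135219344945395667953620620651441210255223078196752 : ℝ) / 10 ^ 50 < √(2 * √2 - 1) := by
  apply Real.lt_sqrt_of_sq_lt
  have := s_gt
  refine lt_of_lt_of_le ?_ (sub_le_sub_right (mul_le_mul_of_nonneg_left this.le zero_le_two) 1)
  norm_num

lemma r_lt : √(2 * √2 - 1) < (135219344945395667953620620651441210255223078196755 : ℝ) / 10 ^ 50 := by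
  rw [Real.sqrt_lt' (by norm_num)]
  have := s_lt
  refine lt_of_le_of_lt (sub_le_sub_right (mul_le_mul_of_nonneg_left this.le zero_le_two) 1) ?_
  norm_num

lemma b_gt : (188320350591352586416894746536205509056095132867220 : ℝ) / 10 ^ 50 < bet := by
  have h1 := s_gt
  have h2 := r_gt
  unfold bet
  have : (188320350591352586416894746536205509056095132867220 : ℝ) / 10 ^ 50 ≤ (1 + (141421356237309504880168872420969807856967187537694 : ℝ) / 10 ^ 50 + (135219344945395667953620620651441210255223078196752 : ℝ) / 10 ^ 50) / 2 := by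
    norm_num
  linarith

lemma b_lt : bet < (188320350591352586416894746536205509056095132867226 : ℝ) / 10 ^ 50 := by
  have h1 := s_lt
  have h2 := r_lt
  unfold bet
  have : (1 + (141421356237309504880168872420969807856967187537695 : ℝ) / 10 ^ 50 + (135219344945395667953620620651441210255223078196755 : ℝ) / 10 ^ 50) / 2 ≤ (188320350591352586416894746536205509056095132867226 : ℝ) / 10 ^ 50 := by
    norm_num
  linarith

lemma bq : bet ^ 2 = (1 + √2) * bet - 1 := by
  have h1 := s2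
  have h2 := r2
  unfold bet
  linear_combination (h2 - h1) / 4

lemma root : bet ^ 4 - 2 * bet ^ 3 + bet ^ 2 - 2 * bet + 1 = 0 := by
  have h1 := s2
  linear_combination (bet ^ 2 - (1 - √2) * bet + 1) * bq + bet ^ 2 * h1

lemma b0 : bet ≠ 0 := by
  have := b_gt
  have h : (0 : ℝ) < (188320350591352586416894746536205509056095132867220 : ℝ) / 10 ^ 50 := by norm_num
  linarith

lemma bl : bet * lmb = 1 := mul_inv_cancel₀ b0

lemma l_eq : lmb = 2 - bet + 2 * bet ^ 2 - bet ^ 3 := by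
  have h := root
  apply mul_left_cancel₀ b0
  rw [bl]
  linear_combination h

/-- the denominators of the enclosures -/
def Q : ℤ := 10 ^ 40
def Q1 : ℤ := 18832035059135258641689474653620550905610
def Q2 : ℤ := 35464554446849952444567610623669987356545
def Q3 : ℤ := 66786973269968954401118334005242993927392

lemma e1 : |bet - (Q1 : ℝ) / Q| ≤ 1 / Q := by
  have h1 := b_gt
  have h2 := b_lt
  unfold Q1 Q
  push_cast
  rw [abs_le]
  constructor
  · refine le_trans ?_ (sub_le_sub_right h1.le _)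
    norm_num
  · refine le_trans (sub_le_sub_right h2.le _) ?_
    norm_num

lemma e2 : |bet ^ 2 - (Q2 : ℝ) / Q| ≤ 1 / Q := by
  have h1 := pow_le_pow_left₀ (by norm_num) b_gt.le 2
  have h2 := pow_le_pow_left₀ ((le_trans (by norm_num) b_gt.le : (0 : ℝ) ≤ bet)) b_lt.le 2
  unfold Q2 Q
  push_cast
  rw [abs_le]
  constructor
  · refine le_trans ?_ (sub_le_sub_right h1 _)
    norm_num
  · refine le_trans (sub_le_sub_right h2 _) ?_
    norm_num

lemma e3 : |bet ^ 3 - (Q3 : ℝ) / Q| ≤ 1 / Q := by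
  have h1 := pow_le_pow_left₀ (by norm_num) b_gt.le 3
  have h2 := pow_le_pow_left₀ ((le_trans (by norm_num) b_gt.le : (0 : ℝ) ≤ bet)) b_lt.le 3
  unfold Q3 Q
  push_cast
  rw [abs_le]
  constructor
  · refine le_trans ?_ (sub_le_sub_right h1 _)
    norm_num
  · refine le_trans (sub_le_sub_right h2 _) ?_
    norm_num

/-- value of the linear form -/
noncomputable def ev (a b c d : ℤ) : ℝ := a + b * bet + c * bet ^ 2 + d * bet ^ 3

lemma ev_up (a b c d : ℤ) : ev (-d) (a + 2 * d) (b - d) (c + 2 * d) = ev a b c d * bet := by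
  unfold ev
  push_cast
  linear_combination (-(d : ℝ)) * root

lemma ev_down (a b c d : ℤ) : ev (b + 2 * a) (c - a) (d + 2 * a) (-a) = ev a b c d * lmb := by
  apply mul_right_cancel₀ b0
  rw [mul_assoc, mul_comm lmb bet, bl, mul_one]
  unfold ev
  push_cast
  linear_combination (-(a : ℝ)) * root

/-- the test -/
def ok (a b c d : ℤ) : Bool :=
  let v := a * Q + b * Q1 + c * Q2 + d * Q3
  let k := (v + Q / 2) / Q
  decide (((v - k * Q).natAbs + (b.natAbs + c.natAbs + d.natAbs)) * 100 ≤ 41 * Q.natAbs)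

lemma ok_sound {a b c d : ℤ} (h : ok a b c d = true) :
    ∃ k : ℤ, |ev a b c d - k| ≤ 2 / 5 + 1 / 100 := by
  unfold ok at h
  rw [decide_eq_true_iff] at h
  set v := a * Q + b * Q1 + c * Q2 + d * Q3 with hv
  refine ⟨(v + Q / 2) / Q, ?_⟩
  set k := (v + Q / 2) / Q with hk
  have hQ : (0 : ℝ) < (Q : ℝ) := by unfold Q; norm_num
  have hQn : ((Q.natAbs : ℕ) : ℝ) = Q := by
    rw [Nat.cast_natAbs]
    rw [abs_of_nonneg (by unfold Q; norm_num)]
  have h' : ((((v - k * Q).natAbs + (b.natAbs + c.natAbs + d.natAbs)) * 100 : ℕ) : ℝ) ≤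
      ((41 * Q.natAbs : ℕ) : ℝ) := by exact_mod_cast h
  push_cast [Nat.cast_natAbs] at h'
  rw [abs_of_pos hQ] at h'
  have k1 := e1
  have k2 := e2
  have k3 := e3
  have t1 : |(b : ℝ) * (bet - (Q1 : ℝ) / Q)| ≤ |(b : ℝ)| * (1 / Q) := by
    rw [abs_mul]; exact mul_le_mul_of_nonneg_left k1 (abs_nonneg _)
  have t2 : |(c : ℝ) * (bet ^ 2 - (Q2 : ℝ) / Q)| ≤ |(c : ℝ)| * (1 / Q) := by
    rw [abs_mul]; exact mul_le_mul_of_nonneg_left k2 (abs_nonneg _)
  have t3 : |(d : ℝ) * (bet ^ 3 - (Q3 : ℝ) / Q)| ≤ |(d : ℝ)| * (1 / Q) := by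
    rw [abs_mul]; exact mul_le_mul_of_nonneg_left k3 (abs_nonneg _)
  have e : ev a b c d - k = ((v : ℝ) - k * Q) / Q + ((b : ℝ) * (bet - (Q1 : ℝ) / Q) +
      (c : ℝ) * (bet ^ 2 - (Q2 : ℝ) / Q) + (d : ℝ) * (bet ^ 3 - (Q3 : ℝ) / Q)) := by
    rw [hv]
    unfold ev
    push_cast
    field_simp
    ring
  rw [e]
  have t4 : |((v : ℝ) - k * Q) / Q| = |(v : ℝ) - k * Q| / Q := by
    rw [abs_div, abs_of_pos hQ]
  calc _ ≤ |((v : ℝ) - k * Q) / Q| + (|(b : ℝ) * (bet - (Q1 : ℝ) / Q)| +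
        |(c : ℝ) * (bet ^ 2 - (Q2 : ℝ) / Q)| + |(d : ℝ) * (bet ^ 3 - (Q3 : ℝ) / Q)|) := by
        refine (abs_add_le _ _).trans (add_le_add le_rfl ?_)
        refine (abs_add_le _ _).trans (add_le_add ?_ le_rfl)
        exact abs_add_le _ _
    _ ≤ |(v : ℝ) - k * Q| / Q + (|(b : ℝ)| * (1 / Q) + |(c : ℝ)| * (1 / Q) +
        |(d : ℝ)| * (1 / Q)) := by
        rw [t4]
        exact add_le_add le_rfl (add_le_add (add_le_add t1 t2) t3)
    _ = (|(v : ℝ) - k * Q| + (|(b : ℝ)| + |(c : ℝ)| + |(d : ℝ)|)) / Q := by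
        field_simp
    _ ≤ 2 / 5 + 1 / 100 := by
        rw [div_le_iff₀ hQ]
        linarith

def loopUp : ℕ → ℤ → ℤ → ℤ → ℤ → Bool
  | 0, _, _, _, _ => true
  | n + 1, a, b, c, d => ok a b c d && loopUp n (-d) (a + 2 * d) (b - d) (c + 2 * d)

def loopDown : ℕ → ℤ → ℤ → ℤ → ℤ → Bool
  | 0, _, _, _, _ => true
  | n + 1, a, b, c, d => ok a b c d && loopDown n (b + 2 * a) (c - a) (d + 2 * a) (-a)

lemma loopUp_sound : ∀ (n : ℕ) (a b c d : ℤ), loopUp n a b c d = true → ∀ i < n,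
    ∃ k : ℤ, |ev a b c d * bet ^ i - k| ≤ 2 / 5 + 1 / 100 := by
  intro n
  induction n with
  | zero => intro a b c d _ i hi; omega
  | succ n ih =>
    intro a b c d h i hi
    rw [loopUp, Bool.and_eq_true] at h
    cases i with
    | zero => rw [pow_zero, mul_one]; exact ok_sound h.1
    | succ i =>
      obtain ⟨k, hk⟩ := ih _ _ _ _ h.2 i (by omega)
      refine ⟨k, ?_⟩
      rw [ev_up] at hk
      rw [pow_succ', ← mul_assoc]
      exact hk

lemma loopDown_sound : ∀ (n : ℕ) (a b c d : ℤ), loopDown n a b c d = true → ∀ i < n,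
    ∃ k : ℤ, |ev a b c d * lmb ^ i - k| ≤ 2 / 5 + 1 / 100 := by
  intro n
  induction n with
  | zero => intro a b c d _ i hi; omega
  | succ n ih =>
    intro a b c d h i hi
    rw [loopDown, Bool.and_eq_true] at h
    cases i with
    | zero => rw [pow_zero, mul_one]; exact ok_sound h.1
    | succ i =>
      obtain ⟨k, hk⟩ := ih _ _ _ _ h.2 i (by omega)
      refine ⟨k, ?_⟩
      rw [ev_down] at hk
      rw [pow_succ', ← mul_assoc]
      exact hk

lemma ev_P : ev (-372860140033) 43548757261 (-290848967858) 197992484131 = PI0 bet := by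
  unfold ev PI0
  push_cast
  ring

set_option maxRecDepth 100000 in
lemma check_up : loopUp 50 (-372860140033) 43548757261 (-290848967858) 197992484131 = true := by
  decide +kernel

set_option maxRecDepth 100000 in
lemma check_down :
    loopDown 16 (-372860140033) 43548757261 (-290848967858) 197992484131 = true := by
  decide +kernel

lemma PI_gt : (1209 : ℝ) ≤ PI0 bet := by
  have k1 := abs_le.1 e1
  have k2 := abs_le.1 e2
  have k3 := abs_le.1 e3
  unfold Q1 Q at k1
  unfold Q2 Q at k2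
  unfold Q3 Q at k3
  push_cast at k1 k2 k3
  unfold PI0
  norm_num at k1 k2 k3 ⊢
  linarith [k1.1, k1.2, k2.1, k2.2, k3.1, k3.2]

lemma PI_lt : PI0 bet ≤ 1210 := by
  have k1 := abs_le.1 e1
  have k2 := abs_le.1 e2
  have k3 := abs_le.1 e3
  unfold Q1 Q at k1
  unfold Q2 Q at k2
  unfold Q3 Q at k3
  push_cast at k1 k2 k3
  unfold PI0
  norm_num at k1 k2 k3 ⊢
  linarith [k1.1, k1.2, k2.1, k2.2, k3.1, k3.2]

lemma b_ge : (188 / 100 : ℝ) ≤ bet := le_trans (by norm_num) b_gt.le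

lemma b_ge' : (1883 / 1000 : ℝ) ≤ bet := le_trans (by norm_num) b_gt.le

lemma l_pos : 0 < lmb := inv_pos.2 (lt_of_lt_of_le (by norm_num) b_ge)

lemma l_le : lmb ≤ 1000 / 1883 := by
  have h := b_ge'
  have h1 := bl
  have h2 := l_pos
  have h3 : 1883 / 1000 * lmb ≤ 1 := by rw [← h1]; exact mul_le_mul_of_nonneg_right h h2.le
  linarith

lemma bet_int : IsIntegral ℤ bet := by
  refine ⟨Polynomial.X ^ 4 - 2 * Polynomial.X ^ 3 + Polynomial.X ^ 2 - 2 * Polynomial.X + 1,
    ?_, ?_⟩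
  · monicity!
  · simp only [Polynomial.eval₂_add, Polynomial.eval₂_sub, Polynomial.eval₂_mul,
      Polynomial.eval₂_pow, Polynomial.eval₂_X, Polynomial.eval₂_one, Polynomial.eval₂_ofNat]
    linear_combination root

lemma abs_tan_le {r d : ℝ} (hd : 0 < d) (hr : |r| ≤ 1 / 2 - d) :
    |Real.tan (Real.pi * r)| ≤ 1 / (2 * d) := by
  have h1 : 1 - 2 / Real.pi * (Real.pi * |r|) ≤ Real.cos (Real.pi * |r|) :=
    Real.one_sub_mul_le_cos (by positivity) (by
      have := Real.pi_pos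
      nlinarith [abs_nonneg r])
  have h2 : 2 / Real.pi * (Real.pi * |r|) = 2 * |r| := by
    field_simp
  rw [h2] at h1
  have h3 : Real.cos (Real.pi * |r|) = Real.cos (Real.pi * r) := by
    rw [← Real.cos_abs (Real.pi * r), abs_mul, abs_of_pos Real.pi_pos]
  rw [h3] at h1
  have h4 : 2 * d ≤ Real.cos (Real.pi * r) := by linarith
  have h5 : 0 < Real.cos (Real.pi * r) := by linarith
  rw [Real.tan_eq_sin_div_cos, abs_div, abs_of_pos h5]
  calc |Real.sin (Real.pi * r)| / Real.cos (Real.pi * r) ≤ 1 / Real.cos (Real.pi * r) := by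
        gcongr
        exact Real.abs_sin_le_one _
    _ ≤ 1 / (2 * d) := by gcongr

lemma abs_tan_le' {r : ℝ} (hr : |r| ≤ 1 / 8) :
    |Real.tan (Real.pi * r)| ≤ 8 * |r| := by
  have h1 : 1 - 2 / Real.pi * (Real.pi * |r|) ≤ Real.cos (Real.pi * |r|) :=
    Real.one_sub_mul_le_cos (by positivity) (by
      have := Real.pi_pos
      nlinarith [abs_nonneg r])
  have h2 : 2 / Real.pi * (Real.pi * |r|) = 2 * |r| := by
    field_simp
  rw [h2] at h1
  have h3 : Real.cos (Real.pi * |r|) = Real.cos (Real.pi * r) := by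
    rw [← Real.cos_abs (Real.pi * r), abs_mul, abs_of_pos Real.pi_pos]
  rw [h3] at h1
  have h5 : 1 / 2 ≤ Real.cos (Real.pi * r) := by linarith
  have h6 : 0 < Real.cos (Real.pi * r) := by linarith
  have h7 : |Real.sin (Real.pi * r)| ≤ 4 * |r| := by
    refine (Real.abs_sin_le_abs).trans ?_
    rw [abs_mul, abs_of_pos Real.pi_pos]
    exact mul_le_mul_of_nonneg_right Real.pi_le_four (abs_nonneg _)
  rw [Real.tan_eq_sin_div_cos, abs_div, abs_of_pos h6, div_le_iff₀ h6]
  have := abs_nonneg r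
  nlinarith

lemma tan_int (x : ℝ) (k : ℤ) : Real.tan (Real.pi * x) = Real.tan (Real.pi * (x - k)) := by
  have : Real.pi * (x - k) = Real.pi * x - k * Real.pi := by ring
  rw [this, Real.tan_sub_int_mul_pi]

end InitAux

open InitAux

theorem init_int : IsIntegral ℤ (PI0 bet * bet ^ 50) := by
  refine IsIntegral.mul ?_ (bet_int.pow 50)
  have h := bet_int
  have hz : ∀ m : ℤ, IsIntegral ℤ (m : ℝ) := fun m => isIntegral_algebraMap
  have e : PI0 bet = ((-372860140033 : ℤ) : ℝ) + ((43548757261 : ℤ) : ℝ) * bet +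
      ((-290848967858 : ℤ) : ℝ) * bet ^ 2 + ((197992484131 : ℤ) : ℝ) * bet ^ 3 := by
    unfold PI0
    push_cast
    ring
  rw [e]
  exact (((hz _).add ((hz _).mul h)).add ((hz _).mul (h.pow 2))).add ((hz _).mul (h.pow 3))

theorem init_one_le : 1 ≤ |PI0 bet * bet ^ 50| := by
  have h1 := PI_gt
  have h2 : (1 : ℝ) ≤ bet ^ 50 := one_le_pow₀ (le_trans (by norm_num) b_ge)
  refine le_trans ?_ (le_abs_self _)
  nlinarith

theorem init_ha : 8 * |PI0 bet * bet ^ 50| ≤ bet ^ 65 := by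
  have h1 := PI_gt
  have h2 := PI_lt
  have h3 : (0 : ℝ) < bet ^ 50 := pow_pos (lt_of_lt_of_le (by norm_num) b_ge) _
  have h4 : (9680 : ℝ) ≤ bet ^ 15 :=
    le_trans (by norm_num) (pow_le_pow_left₀ (by norm_num) b_ge 15)
  rw [abs_of_nonneg (by positivity)]
  have h5 : bet ^ 65 = bet ^ 15 * bet ^ 50 := by ring
  rw [h5, ← mul_assoc]
  exact mul_le_mul_of_nonneg_right (by linarith) h3.le

theorem init_hb : 8 * |PI0 lmb * lmb ^ 50| ≤ 1 / 10 := by
  have h1 := l_pos
  have h2 := l_le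
  have h3 : (1000 : ℝ) / 1884 ≤ lmb := by
    have h := bl
    have h4 : bet ≤ 1884 / 1000 := b_lt.le.trans (by norm_num)
    have h5 : 1 ≤ 1884 / 1000 * lmb := by rw [← h]; exact mul_le_mul_of_nonneg_right h4 h1.le
    linarith
  have p1 : lmb ^ 50 ≤ (1000 / 1883) ^ 50 := pow_le_pow_left₀ h1.le h2 50
  have p2 : lmb ^ 2 ≤ (1000 / 1883) ^ 2 := pow_le_pow_left₀ h1.le h2 2
  have p3 : lmb ^ 3 ≤ (1000 / 1883) ^ 3 := pow_le_pow_left₀ h1.le h2 3
  have q2 : (1000 / 1884 : ℝ) ^ 2 ≤ lmb ^ 2 := pow_le_pow_left₀ (by norm_num) h3 2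
  have q3 : (1000 / 1884 : ℝ) ^ 3 ≤ lmb ^ 3 := pow_le_pow_left₀ (by norm_num) h3 3
  have hP : |PI0 lmb| ≤ 410000000000 := by
    unfold PI0
    rw [abs_le]
    norm_num at p2 p3 q2 q3 ⊢
    constructor <;> linarith
  rw [abs_mul, abs_of_pos (pow_pos h1 50)]
  calc 8 * (|PI0 lmb| * lmb ^ 50) ≤ 8 * (410000000000 * (1000 / 1883) ^ 50) := by gcongr
    _ ≤ 1 / 10 := by norm_num

theorem init_hz : 16 * ‖(-372860140033 + 43548757261 * alp - 290848967858 * alp ^ 2
  + 197992484131 * alp ^ 3) * alp ^ 50‖ ≤ 1 / 30000 := by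
  have hs := s2
  have g1 := s_gt
  have g2 := s_lt
  obtain ⟨s, hsd⟩ : ∃ s : ℝ, s = √2 := ⟨_, rfl⟩
  obtain ⟨y, hyd⟩ : ∃ y : ℝ, y = √(1 + 2 * √2) / 2 := ⟨_, rfl⟩
  have hy2 : y ^ 2 = (1 + 2 * s) / 4 := by
    rw [hyd, div_pow, Real.sq_sqrt (by positivity), ← hsd]
    norm_num
  have hy0 : 0 ≤ y := by rw [hyd]; positivity
  rw [← hsd] at hs g1 g2
  have halp : alp = ⟨(1 - s) / 2, y⟩ := by rw [hsd, hyd]; rfl
  have hna : ‖alp‖ = 1 := by
    rw [halp, Complex.norm_eq_sqrt_sq_add_sq, hy2]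
    have : ((1 - s) / 2) ^ 2 + (1 + 2 * s) / 4 = 1 := by
      linear_combination hs / 4
    rw [this, Real.sqrt_one]
  rw [norm_mul, norm_pow, hna, one_pow, mul_one]
  have hy1 : y ≤ 1 := by
    have h3 : y ^ 2 ≤ 1 := by
      rw [hy2]
      have : s ≤ 3 / 2 := g2.le.trans (by norm_num)
      linarith
    nlinarith
  -- real and imaginary parts
  have e : (-372860140033 + 43548757261 * alp - 290848967858 * alp ^ 2
      + 197992484131 * alp ^ 3 : ℂ) = ⟨(-201050554139 / 2) + (142164210193 / 2) * s, y * ((148684757665) + (-105136000404) * s)⟩ := by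
    rw [halp]
    apply Complex.ext
    · simp only [pow_succ, pow_zero, one_mul, Complex.add_re, Complex.sub_re, Complex.neg_re,
        Complex.mul_re, Complex.mul_im, Complex.re_ofNat, Complex.im_ofNat]
      linear_combination ((-((-290848967858)) - 3 * ((197992484131)) * ((1 - s) / 2)) * hy2 + ((1200234421463 / 8) * s ^ 0 + (-197992484131 / 8) * s ^ 1) * hs)
    · simp only [pow_succ, pow_zero, one_mul, Complex.add_im, Complex.sub_im, Complex.neg_im,
        Complex.mul_re, Complex.mul_im, Complex.re_ofNat, Complex.im_ofNat]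
      linear_combination ((-(y * (197992484131))) * hy2 + y * ((593977452393 / 4) * s ^ 0) * hs)
  rw [e]
  have r1 : |(-201050554139 / 2) + (142164210193 / 2) * s| ≤ 1 / 2000000 := by
    norm_num at g1 g2
    rw [abs_le]
    constructor <;> norm_num <;> linarith
  have r2 : |(148684757665) + (-105136000404) * s| ≤ 1 / 2000000 := by
    norm_num at g1 g2
    rw [abs_le]
    constructor <;> norm_num <;> linarith
  have r3 : |y * ((148684757665) + (-105136000404) * s)| ≤ 1 / 2000000 := by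
    rw [abs_mul, abs_of_nonneg hy0]
    calc y * |(148684757665) + (-105136000404) * s| ≤ 1 * (1 / 2000000) := by gcongr
      _ = _ := one_mul _
  have h := Complex.norm_le_abs_re_add_abs_im
    (⟨(-201050554139 / 2) + (142164210193 / 2) * s, y * ((148684757665) + (-105136000404) * s)⟩ : ℂ)
  simp only at h
  linarith

/-- the numbers `a * lmb ^ i` stay away from the half-integers -/
theorem init_near (i : ℕ) (h1 : 1 ≤ i) (h2 : i ≤ 65) :
    ∃ k : ℤ, |PI0 bet * bet ^ 50 * lmb ^ i - k| ≤ 2 / 5 + 1 / 100 := by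
  have hbl := bl
  rcases le_or_gt i 50 with h | h
  · obtain ⟨k, hk⟩ := loopUp_sound 50 _ _ _ _ check_up (50 - i) (by omega)
    refine ⟨k, ?_⟩
    rw [ev_P] at hk
    have e : PI0 bet * bet ^ 50 * lmb ^ i = PI0 bet * bet ^ (50 - i) := by
      have : bet ^ 50 = bet ^ (50 - i) * bet ^ i := by rw [← pow_add]; congr 1; omega
      rw [this, mul_assoc, mul_assoc, ← mul_pow, hbl, one_pow, mul_one]
    rw [e]
    exact hk
  · obtain ⟨k, hk⟩ := loopDown_sound 16 _ _ _ _ check_down (i - 50) (by omega)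
    refine ⟨k, ?_⟩
    rw [ev_P] at hk
    have e : PI0 bet * bet ^ 50 * lmb ^ i = PI0 bet * lmb ^ (i - 50) := by
      have : lmb ^ i = lmb ^ 50 * lmb ^ (i - 50) := by rw [← pow_add]; congr 1; omega
      rw [this, mul_assoc, ← mul_assoc (bet ^ 50), ← mul_pow, hbl, one_pow, one_mul]
    rw [e]
    exact hk

theorem init_hT (n : ℕ) :
    ∑ i ∈ Finset.range n, |Real.tan (Real.pi * (PI0 bet * bet ^ 50) * lmb ^ (i + 1))|
      ≤ 1000 := by
  have hl := l_pos
  have hl2 : lmb ≤ 1 / 1 := l_le.trans (by norm_num)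
  -- first 65 terms
  have hfirst : ∀ i, i < 65 → |Real.tan (Real.pi * (PI0 bet * bet ^ 50) * lmb ^ (i + 1))| ≤
      1 / (2 * (9 / 100)) := by
    intro i hi
    obtain ⟨k, hk⟩ := init_near (i + 1) (by omega) (by omega)
    rw [mul_assoc, tan_int _ k]
    exact abs_tan_le (by norm_num) (hk.trans (by norm_num))
  -- the other terms
  have hrest : ∀ i, |Real.tan (Real.pi * (PI0 bet * bet ^ 50) * lmb ^ (65 + i + 1))| ≤
      lmb ^ i := by
    intro i
    have hx : |PI0 bet * bet ^ 50 * lmb ^ (65 + i + 1)| ≤ lmb ^ i / 8 := by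
      have h3 := init_ha
      have e : lmb ^ (65 + i + 1) = lmb ^ 65 * lmb ^ (i + 1) := by rw [← pow_add, add_assoc]
      rw [e, abs_mul, abs_mul (lmb ^ 65), abs_of_pos (pow_pos hl 65), abs_of_pos (pow_pos hl _),
        ← mul_assoc]
      have h4 : |PI0 bet * bet ^ 50| * lmb ^ 65 ≤ 1 / 8 := by
        have h5 : 8 * |PI0 bet * bet ^ 50| * lmb ^ 65 ≤ bet ^ 65 * lmb ^ 65 :=
          mul_le_mul_of_nonneg_right h3 (pow_nonneg hl.le _)
        rw [← mul_pow, bl, one_pow] at h5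
        linarith
      have h6 : lmb ^ (i + 1) ≤ lmb ^ i :=
        pow_le_pow_of_le_one hl.le (hl2.trans (by norm_num)) (Nat.le_succ i)
      calc |PI0 bet * bet ^ 50| * lmb ^ 65 * lmb ^ (i + 1) ≤ 1 / 8 * lmb ^ i := by gcongr
        _ = _ := by ring
    have h7 : lmb ^ i ≤ 1 := pow_le_one₀ hl.le (hl2.trans (by norm_num))
    rw [mul_assoc]
    refine (abs_tan_le' (hx.trans (by linarith))).trans ?_
    linarith
  -- geometric series
  have hgeo : ∀ m, ∑ i ∈ Finset.range m, lmb ^ i ≤ 3 := by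
    intro m
    have h1 : (∑ i ∈ Finset.range m, lmb ^ i) * (1 - lmb) = 1 - lmb ^ m := by
      have := geom_sum_mul_neg lmb m
      exact this
    have h2 := l_le
    have h3 : 0 < 1 - lmb := by
      have : (1000 / 1883 : ℝ) < 1 := by norm_num
      linarith
    have h4 : (∑ i ∈ Finset.range m, lmb ^ i) * (1 - lmb) ≤ 3 * (1 - lmb) := by
      rw [h1]
      have h5 := pow_nonneg hl.le m
      have h6 : (1000 / 1883 : ℝ) ≤ 2 / 3 := by norm_num
      linarith
    exact le_of_mul_le_mul_right h4 h3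
  rcases le_or_gt n 65 with h | h
  · calc _ ≤ ∑ i ∈ Finset.range n, (1 / (2 * (9 / 100)) : ℝ) := by
          apply Finset.sum_le_sum
          intro i hi
          exact hfirst i (lt_of_lt_of_le (Finset.mem_range.1 hi) h)
      _ = n * (1 / (2 * (9 / 100))) := by
          rw [Finset.sum_const, Finset.card_range, nsmul_eq_mul]
      _ ≤ 65 * (1 / (2 * (9 / 100))) := by
          gcongr
          exact_mod_cast h
      _ ≤ 1000 := by norm_num
  · obtain ⟨m, rfl⟩ : ∃ m, n = 65 + m := ⟨n - 65, by omega⟩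
    rw [Finset.sum_range_add]
    have h8 : ∑ i ∈ Finset.range 65, |Real.tan (Real.pi * (PI0 bet * bet ^ 50) *
        lmb ^ (i + 1))| ≤ 65 * (1 / (2 * (9 / 100))) := by
      calc _ ≤ ∑ i ∈ Finset.range 65, (1 / (2 * (9 / 100)) : ℝ) := by
            apply Finset.sum_le_sum
            intro i hi
            exact hfirst i (Finset.mem_range.1 hi)
        _ = _ := by rw [Finset.sum_const, Finset.card_range, nsmul_eq_mul]; rfl
    have h9 : ∑ i ∈ Finset.range m, |Real.tan (Real.pi * (PI0 bet * bet ^ 50) *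
        lmb ^ (65 + i + 1))| ≤ 3 :=
      (Finset.sum_le_sum fun i _ => hrest i).trans (hgeo m)
    norm_num at h8
    linarith

end Vale.Agent.P105
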