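import Vale.Agent.P105.Salem.Sing
import Vale.Agent.P105.Salem.Init

open MeasureTheory ProbabilityTheory Filter
open scoped ENNReal Topology

namespace Vale.Agent.P105

/-- the initial state -/
theorem init_state : ∃ θ : ℝ, St (PI0 bet * bet ^ 50) (PI0 lmb * lmb ^ 50)
    ((-372860140033 + 43548757261 * alp - 290848967858 * alp ^ 2
      + 197992484131 * alp ^ 3) * alp ^ 50) (1 / 30000) θ 1000 65 := by
  refine ⟨|psi (Real.pi * (PI0 bet * bet ^ 50) * lmb)|, ?_⟩
  constructor
  · exact init_int
  · exact init_one_le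
  · intro j
    obtain ⟨n, hn⟩ := trace_poly ![-372860140033, 43548757261, -290848967858, 197992484131]
      (50 + j)
    refine ⟨n, ?_⟩
    rw [← hn]
    simp only [Fin.sum_univ_four]
    have e0 : (![-372860140033, 43548757261, -290848967858, 197992484131] : Fin 4 → ℤ) 0
      = -372860140033 := rfl
    have e1 : (![-372860140033, 43548757261, -290848967858, 197992484131] : Fin 4 → ℤ) 1
      = 43548757261 := rfl
    have e2 : (![-372860140033, 43548757261, -290848967858, 197992484131] : Fin 4 → ℤ) 2
      = -290848967858 := rfl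
    have e3 : (![-372860140033, 43548757261, -290848967858, 197992484131] : Fin 4 → ℤ) 3
      = 197992484131 := rfl
    rw [e0, e1, e2, e3]
    have f0 : ((0 : Fin 4) : ℕ) = 0 := rfl
    have f1 : ((1 : Fin 4) : ℕ) = 1 := rfl
    have f2 : ((2 : Fin 4) : ℕ) = 2 := rfl
    have f3 : ((3 : Fin 4) : ℕ) = 3 := rfl
    rw [f0, f1, f2, f3]
    push_cast
    have g : (-372860140033 + 43548757261 * alp - 290848967858 * alp ^ 2
      + 197992484131 * alp ^ 3) * alp ^ 50 * alp ^ j
      = (-372860140033 * alp ^ 0 + 43548757261 * alp ^ 1 + -290848967858 * alp ^ 2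
      + 197992484131 * alp ^ 3) * alp ^ (50 + j) := by ring
    rw [g]
    unfold PI0
    ring
  · exact init_hz
  · exact init_hb
  · exact init_ha
  · norm_num
  · intro n
    exact_mod_cast init_hT n
  · exact le_rfl
  · exact abs_pos.mpr (psi_ne_zero_of_integral init_int)
  · norm_num
  · norm_num
  · norm_num
  · norm_num

/-- **The Bernoulli convolution attached to the Salem number `1.8832...` is singular.** -/
theorem singular_lmb : IsSingular (bernoulliConv lmb) := by
  obtain ⟨θ, h⟩ := init_state
  exact singular_of_state h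

theorem lmb_mem : 1 / 2 < lmb ∧ lmb < 1 := ⟨by linarith [lmb_gt], lmb_lt_one⟩

theorem lmb_inv_not_pisot : ¬ IsPisot lmb⁻¹ := by
  rw [lmb, inv_inv]
  exact bet_not_pisot

end Vale.Agent.P105
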