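import Vale.Agent.P105.Salem.Alg

open MeasureTheory ProbabilityTheory Filter
open scoped ENNReal Topology

namespace Vale.Agent.P105

lemma bet_one_lt : 1 < bet := by linarith [bet_gt]
lemma bet_pos : 0 < bet := by linarith [bet_gt]
lemma bet_ne : bet ≠ 0 := bet_pos.ne'
lemma lmb_pos : 0 < lmb := by rw [lmb]; exact inv_pos.mpr bet_pos
lemma lmb_lt : lmb < 0.5311 := by
  have h := bet_mul_lmb
  by_contra hc
  push Not at hc
  nlinarith [bet_gt]
lemma lmb_gt : 0.5310 < lmb := by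
  have h := bet_mul_lmb
  by_contra hc
  push Not at hc
  nlinarith [bet_lt, lmb_pos]
lemma lmb_lt_one : lmb < 1 := by linarith [lmb_lt]

instance : IsProbabilityMeasure (bernoulliConv lmb) :=
  isProb_bernoulliConv lmb_pos lmb_lt_one

lemma psi_tendsto (t : ℝ) :
    Tendsto (fun n => ∏ i ∈ Finset.range n, Real.cos (t * lmb ^ i)) atTop (𝓝 (psi t)) := by
  have h := (Complex.continuous_re.tendsto _).comp (tendsto_charFun lmb_pos lmb_lt_one t)
  refine h.congr (fun n => ?_)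
  simp only [Function.comp_apply]
  rw [← Complex.ofReal_prod, Complex.ofReal_re]

lemma psi_abs_le_one (t : ℝ) : |psi t| ≤ 1 :=
  (Complex.abs_re_le_norm _).trans (norm_charFun_le_one t)

lemma psi_prod (t : ℝ) (n : ℕ) :
    psi t = (∏ i ∈ Finset.range n, Real.cos (t * lmb ^ i)) * psi (t * lmb ^ n) := by
  have h1 := (psi_tendsto t).comp (tendsto_add_atTop_nat n)
  have h2 := (psi_tendsto (t * lmb ^ n)).const_mul (∏ i ∈ Finset.range n, Real.cos (t * lmb ^ i))
  refine tendsto_nhds_unique h1 (h2.congr (fun m => ?_))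
  simp only [Function.comp_apply]
  rw [add_comm m n, Finset.prod_range_add]
  congr 1
  apply Finset.prod_congr rfl
  intro i _
  rw [pow_add]
  ring_nf

lemma psi_mul_bet (t : ℝ) : psi (t * bet) = Real.cos (t * bet) * psi t := by
  have h := psi_prod (t * bet) 1
  rw [Finset.prod_range_one, pow_zero, mul_one, pow_one, mul_assoc t bet lmb, bet_mul_lmb,
    mul_one] at h
  exact h

/-- product perturbation, with sign `e = 1` or `e = -1`. -/
lemma psi_pert (A B S e : ℝ) (he : |e| ≤ 1)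
    (hS : ∀ n, ∑ i ∈ Finset.range n, |Real.tan (A * lmb ^ i) * Real.tan (B * lmb ^ i)| ≤ S)
    (n : ℕ) :
    |∏ i ∈ Finset.range n, (1 + e * (Real.tan (A * lmb ^ i) * Real.tan (B * lmb ^ i))) - 1|
      ≤ Real.exp S - 1 := by
  have h := Finset.norm_prod_one_add_sub_one_le (Finset.range n)
    (fun i => e * (Real.tan (A * lmb ^ i) * Real.tan (B * lmb ^ i)))
  rw [Real.norm_eq_abs] at h
  refine h.trans ?_
  have h2 : ∑ i ∈ Finset.range n, ‖e * (Real.tan (A * lmb ^ i) * Real.tan (B * lmb ^ i))‖ ≤ S := by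
    refine le_trans (Finset.sum_le_sum fun i _ => ?_) (hS n)
    rw [norm_mul, Real.norm_eq_abs, Real.norm_eq_abs]
    exact mul_le_of_le_one_left (abs_nonneg _) he
  have := Real.exp_le_exp.mpr h2
  linarith

lemma cos_sub_eq {x y : ℝ} (hx : Real.cos x ≠ 0) (hy : Real.cos y ≠ 0) :
    Real.cos (x - y) = Real.cos x * Real.cos y * (1 + 1 * (Real.tan x * Real.tan y)) := by
  rw [Real.cos_sub, Real.tan_eq_sin_div_cos, Real.tan_eq_sin_div_cos]
  field_simp

lemma cos_add_eq {x y : ℝ} (hx : Real.cos x ≠ 0) (hy : Real.cos y ≠ 0) :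
    Real.cos (x + y) = Real.cos x * Real.cos y * (1 + (-1) * (Real.tan x * Real.tan y)) := by
  rw [Real.cos_add, Real.tan_eq_sin_div_cos, Real.tan_eq_sin_div_cos]
  field_simp
  ring

lemma psi_sub_mul (A B S : ℝ) (hA : ∀ i : ℕ, Real.cos (A * lmb ^ i) ≠ 0)
    (hB : ∀ i : ℕ, Real.cos (B * lmb ^ i) ≠ 0)
    (hS : ∀ n, ∑ i ∈ Finset.range n, |Real.tan (A * lmb ^ i) * Real.tan (B * lmb ^ i)| ≤ S) :
    |psi (A - B) - psi A * psi B| ≤ |psi A * psi B| * (Real.exp S - 1) := by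
  have h1 := psi_tendsto (A - B)
  have h2 := (psi_tendsto A).mul (psi_tendsto B)
  refine le_of_tendsto_of_tendsto' (h1.sub h2).abs (h2.abs.mul_const _) (fun n => ?_)
  have h3 : ∏ i ∈ Finset.range n, Real.cos ((A - B) * lmb ^ i)
      = (∏ i ∈ Finset.range n, Real.cos (A * lmb ^ i)) *
        (∏ i ∈ Finset.range n, Real.cos (B * lmb ^ i)) *
        ∏ i ∈ Finset.range n, (1 + 1 * (Real.tan (A * lmb ^ i) * Real.tan (B * lmb ^ i))) := by
    rw [← Finset.prod_mul_distrib, ← Finset.prod_mul_distrib]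
    apply Finset.prod_congr rfl
    intro i _
    rw [sub_mul, cos_sub_eq (hA i) (hB i)]
  rw [h3]
  set P := (∏ i ∈ Finset.range n, Real.cos (A * lmb ^ i)) *
        (∏ i ∈ Finset.range n, Real.cos (B * lmb ^ i))
  have h4 := psi_pert A B S 1 (by norm_num) hS n
  have : P * (∏ i ∈ Finset.range n, (1 + 1 * (Real.tan (A * lmb ^ i) * Real.tan (B * lmb ^ i))))
      - P = P * (∏ i ∈ Finset.range n,
        (1 + 1 * (Real.tan (A * lmb ^ i) * Real.tan (B * lmb ^ i))) - 1) := by ring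
  rw [this, abs_mul]
  exact mul_le_mul_of_nonneg_left h4 (abs_nonneg _)

lemma psi_add_mul (A B S : ℝ) (hA : ∀ i : ℕ, Real.cos (A * lmb ^ i) ≠ 0)
    (hB : ∀ i : ℕ, Real.cos (B * lmb ^ i) ≠ 0)
    (hS : ∀ n, ∑ i ∈ Finset.range n, |Real.tan (A * lmb ^ i) * Real.tan (B * lmb ^ i)| ≤ S) :
    |psi (A + B) - psi A * psi B| ≤ |psi A * psi B| * (Real.exp S - 1) := by
  have h1 := psi_tendsto (A + B)
  have h2 := (psi_tendsto A).mul (psi_tendsto B)
  refine le_of_tendsto_of_tendsto' (h1.sub h2).abs (h2.abs.mul_const _) (fun n => ?_)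
  have h3 : ∏ i ∈ Finset.range n, Real.cos ((A + B) * lmb ^ i)
      = (∏ i ∈ Finset.range n, Real.cos (A * lmb ^ i)) *
        (∏ i ∈ Finset.range n, Real.cos (B * lmb ^ i)) *
        ∏ i ∈ Finset.range n, (1 + (-1) * (Real.tan (A * lmb ^ i) * Real.tan (B * lmb ^ i))) := by
    rw [← Finset.prod_mul_distrib, ← Finset.prod_mul_distrib]
    apply Finset.prod_congr rfl
    intro i _
    rw [add_mul, cos_add_eq (hA i) (hB i)]
  rw [h3]
  set P := (∏ i ∈ Finset.range n, Real.cos (A * lmb ^ i)) *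
        (∏ i ∈ Finset.range n, Real.cos (B * lmb ^ i))
  have h4 := psi_pert A B S (-1) (by norm_num) hS n
  have : P * (∏ i ∈ Finset.range n, (1 + (-1) * (Real.tan (A * lmb ^ i) * Real.tan (B * lmb ^ i))))
      - P = P * (∏ i ∈ Finset.range n,
        (1 + (-1) * (Real.tan (A * lmb ^ i) * Real.tan (B * lmb ^ i))) - 1) := by ring
  rw [this, abs_mul]
  exact mul_le_mul_of_nonneg_left h4 (abs_nonneg _)

end Vale.Agent.P105
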