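import Vale.Agent.P105.Salem.Facts

open MeasureTheory ProbabilityTheory Filter
open scoped ENNReal Topology

namespace Vale.Agent.P105

/-- Dirichlet for the argument of `alp`. -/
lemma dirichlet_alp (N : ℕ) (hN : 0 < N) :
    ∃ q : ℕ, 0 < q ∧ q ≤ N ∧ ‖alp ^ q - 1‖ ≤ 2 * Real.pi / (N + 1) := by
  set φ := Complex.arg alp with hφ
  have hα : alp = Complex.exp (Complex.I * φ) := by
    have := Complex.norm_mul_exp_arg_mul_I alp
    rw [norm_alp, Complex.ofReal_one, one_mul] at this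
    rw [mul_comm, ← this]
  obtain ⟨q, hq0, hqN, hq⟩ := Real.exists_nat_abs_mul_sub_round_le (φ / (2 * Real.pi)) hN
  refine ⟨q, hq0, hqN, ?_⟩
  set k := round ((q : ℝ) * (φ / (2 * Real.pi))) with hk
  have hpi := Real.pi_pos
  have e1 : alp ^ q = Complex.exp (Complex.I * ((q * φ - 2 * Real.pi * k : ℝ) : ℂ)) := by
    rw [hα, ← Complex.exp_nat_mul]
    push_cast
    rw [show Complex.I * ((q : ℂ) * φ - 2 * Real.pi * (k : ℂ))
      = (q : ℂ) * (Complex.I * φ) - (k : ℂ) * (2 * Real.pi * Complex.I) by ring]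
    rw [Complex.exp_sub, Complex.exp_int_mul_two_pi_mul_I, div_one]
  rw [e1]
  refine Real.norm_exp_I_mul_ofReal_sub_one_le.trans ?_
  rw [Real.norm_eq_abs]
  have e2 : (q : ℝ) * φ - 2 * Real.pi * k = 2 * Real.pi * ((q : ℝ) * (φ / (2 * Real.pi)) - k) := by
    field_simp
  rw [e2, abs_mul, abs_of_pos (by positivity)]
  have := mul_le_mul_of_nonneg_left hq (by positivity : (0 : ℝ) ≤ 2 * Real.pi)
  rwa [mul_one_div] at this

lemma norm_pow_mul_sub_one (m q : ℕ) : ‖alp ^ (m * q) - 1‖ ≤ m * ‖alp ^ q - 1‖ := by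
  induction m with
  | zero => simp
  | succ m ih =>
    have e : alp ^ ((m + 1) * q) - 1 = alp ^ (m * q) * (alp ^ q - 1) + (alp ^ (m * q) - 1) := by
      rw [add_mul, one_mul, pow_add]
      ring
    rw [e]
    refine (norm_add_le _ _).trans ?_
    rw [norm_mul, norm_pow, norm_alp, one_pow, one_mul]
    push_cast
    linarith

/-- tangent of a difference when the product of tangents is small -/
lemma tan_sub_le {x y : ℝ} (hx : Real.cos x ≠ 0) (hy : Real.cos y ≠ 0)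
    (h : |Real.tan x * Real.tan y| ≤ 1 / 10) :
    |Real.tan (x - y)| ≤ 10 / 9 * (|Real.tan x| + |Real.tan y|) := by
  have h1 := (abs_le.mp h).1
  have h2 : 9 / 10 ≤ 1 + 1 * (Real.tan x * Real.tan y) := by linarith
  have hs : Real.sin (x - y) = Real.cos x * Real.cos y * (Real.tan x - Real.tan y) := by
    rw [Real.sin_sub, Real.tan_eq_sin_div_cos, Real.tan_eq_sin_div_cos]
    field_simp
  have e : Real.tan (x - y) = (Real.tan x - Real.tan y) / (1 + 1 * (Real.tan x * Real.tan y)) := by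
    rw [Real.tan_eq_sin_div_cos (x - y), hs, cos_sub_eq hx hy,
      mul_div_mul_left _ _ (mul_ne_zero hx hy)]
  rw [e, abs_div, abs_of_pos (by linarith : (0 : ℝ) < 1 + 1 * (Real.tan x * Real.tan y)),
    div_le_iff₀ (by linarith)]
  have h3 := abs_sub (Real.tan x) (Real.tan y)
  have h4 : 0 ≤ |Real.tan x| + |Real.tan y| := by positivity
  nlinarith

variable {a b : ℝ} {z : ℂ} {ρ θ : ℝ} {T L : ℕ}

/-- one step of the recursion with a given time `t` -/
lemma St.next (h : St a b z ρ θ T L) (t : ℕ) (ht : T ≤ t) (htρ : ρ ^ 2 * t ≤ 1) (ρ' : ℝ)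
    (hz' : ρ * ‖alp ^ t - 1‖ ≤ ρ') (hρ0' : 0 < ρ') (hρ' : ρ' ≤ 1 / 30000)
    (hρT' : ρ' ^ 3 * ((3 * t : ℕ) : ℝ) ^ 4 ≤ 1) :
    St (a * (bet ^ t - 1)) (b * (lmb ^ t - 1)) (z * (alp ^ t - 1)) ρ' (θ ^ 2 / 2) (3 * t)
      (L + t) where
  int := h.int.mul ((bet_integral.pow t).sub isIntegral_one)
  one_le := by
    have ht1 : 1 ≤ t := by have := h.hT100; omega
    have hb : 2 ≤ bet ^ t := by
      have h100 := h.hT100
      calc (2 : ℝ) ≤ bet ^ 2 := by nlinarith [bet_gt]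
        _ ≤ bet ^ t := pow_le_pow_right₀ bet_one_lt.le (by omega)
    rw [abs_mul, abs_of_nonneg (by linarith : 0 ≤ bet ^ t - 1)]
    have := h.one_le
    nlinarith
  tr := by
    intro j
    obtain ⟨n1, h1⟩ := h.tr (j + t)
    obtain ⟨n2, h2⟩ := h.tr j
    refine ⟨n1 - n2, ?_⟩
    push_cast
    rw [← h1, ← h2]
    have e1 : z * (alp ^ t - 1) * alp ^ j = z * alp ^ (j + t) - z * alp ^ j := by
      rw [pow_add]; ring
    rw [e1, Complex.sub_re, pow_add, pow_add]
    ring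
  hz := by
    rw [norm_mul]
    have := mul_le_mul_of_nonneg_right h.hz (norm_nonneg (alp ^ t - 1))
    linarith
  hb := by
    rw [abs_mul]
    have h1 : |lmb ^ t - 1| ≤ 1 := by
      rw [abs_le]
      constructor
      · linarith [pow_nonneg lmb_pos.le t]
      · linarith [pow_le_one₀ (n := t) lmb_pos.le lmb_lt_one.le]
    have := h.hb
    have h2 := mul_le_of_le_one_right (abs_nonneg b) h1
    linarith
  ha := by
    have hb : 1 ≤ bet ^ t := one_le_pow₀ bet_one_lt.le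
    rw [abs_mul, abs_of_nonneg (by linarith : 0 ≤ bet ^ t - 1), pow_add]
    have h1 := h.ha
    have h2 : 8 * (|a| * (bet ^ t - 1)) ≤ 8 * |a| * bet ^ t := by
      nlinarith [abs_nonneg a]
    exact h2.trans (mul_le_mul_of_nonneg_right h1 (by linarith))
  hL := by
    have := h.hL
    omega
  hT := by
    intro n
    have hsum := h.inter_le t ht
    set u : ℕ → ℝ := fun i => |Real.tan (Real.pi * a * lmb ^ (i + 1))| with hu
    set v : ℕ → ℝ := fun i => |Real.tan (Real.pi * a * bet ^ t * lmb ^ (i + 1))| with hv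
    have hu0 : ∀ i, 0 ≤ u i := fun i => abs_nonneg _
    have hv0 : ∀ i, 0 ≤ v i := fun i => abs_nonneg _
    have h1 : ∀ i, |Real.tan (Real.pi * (a * (bet ^ t - 1)) * lmb ^ (i + 1))|
        ≤ 10 / 9 * (v i + u i) := by
      intro i
      have e : Real.pi * (a * (bet ^ t - 1)) * lmb ^ (i + 1)
          = Real.pi * a * bet ^ t * lmb ^ (i + 1) - Real.pi * a * lmb ^ (i + 1) := by ring
      rw [e]
      apply tan_sub_le (cos_bet_lmb_ne h.int t (i + 1)) (cos_lmb_ne h.int (i + 1))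
      have h2 := hsum (i + 1)
      have h3 := Finset.single_le_sum (f := fun i =>
        |Real.tan (Real.pi * a * bet ^ t * lmb ^ (i + 1)) * Real.tan (Real.pi * a * lmb ^ (i + 1))|)
        (fun k _ => abs_nonneg _) (Finset.mem_range.mpr (Nat.lt_succ_self i))
      linarith
    refine (Finset.sum_le_sum fun i _ => h1 i).trans ?_
    rw [← Finset.mul_sum, Finset.sum_add_distrib]
    have hU := h.hT n
    have hV : ∑ i ∈ Finset.range n, v i ≤ ρ * t + 0.22 + T := by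
      have h3 : ∑ i ∈ Finset.range n, v i ≤ ∑ i ∈ Finset.range (t + n), v i :=
        Finset.sum_le_sum_of_subset_of_nonneg (Finset.range_subset_range.mpr (by omega))
          (fun i _ _ => hv0 i)
      refine h3.trans ?_
      rw [Finset.sum_range_add]
      have h4 : ∑ i ∈ Finset.range t, v i ≤ ρ * t + 0.22 := by
        have h5 : ∀ i ∈ Finset.range t, v i ≤ ρ + lmb ^ (t - 1 - i) / 10 := by
          intro i hi
          rw [Finset.mem_range] at hi
          have e1 : Real.pi * a * bet ^ t * lmb ^ (i + 1) = Real.pi * a * bet ^ (t - 1 - i) := by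
            rw [mul_assoc, bet_pow_mul_lmb_pow_le (by omega)]
            congr 2
            omega
          simp only [hv]
          rw [e1]
          exact h.tan_bet _
        refine (Finset.sum_le_sum h5).trans ?_
        rw [Finset.sum_add_distrib, Finset.sum_const, Finset.card_range, nsmul_eq_mul,
          ← Finset.sum_div]
        have := geom_lmb_rev t
        linarith
      have h6 : ∑ k ∈ Finset.range n, v (t + k) ≤ T := by
        refine le_trans (Finset.sum_le_sum fun k _ => ?_) hU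
        have e1 : Real.pi * a * bet ^ t * lmb ^ (t + k + 1) = Real.pi * a * lmb ^ (k + 1) := by
          rw [mul_assoc, bet_pow_mul_lmb_pow_ge (by omega)]
          congr 2
          omega
        simp only [hv, hu]
        rw [e1]
      linarith
    push_cast
    have hTt : (T : ℝ) ≤ t := by exact_mod_cast ht
    have h100 : (100 : ℝ) ≤ T := by exact_mod_cast h.hT100
    have hρ := h.hρ
    have hρt : ρ * t ≤ 1 / 30000 * t := mul_le_mul_of_nonneg_right hρ (by linarith)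
    change 10 / 9 * (∑ i ∈ Finset.range n, v i + ∑ i ∈ Finset.range n, u i) ≤ 3 * (t : ℝ)
    linarith
  hθ := by
    have ht1 : 1 ≤ t := by have := h.hT100; omega
    set A := Real.pi * a * bet ^ (t - 1) with hA
    set B := Real.pi * a * lmb with hB
    have eA : ∀ i : ℕ, A * lmb ^ i = Real.pi * a * bet ^ t * lmb ^ (i + 1) := by
      intro i
      obtain ⟨s, rfl⟩ := Nat.exists_eq_add_of_le ht1
      rw [hA, Nat.add_sub_cancel_left, pow_add, pow_one, pow_succ]
      have : bet * lmb = 1 := bet_mul_lmb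
      calc Real.pi * a * bet ^ s * lmb ^ i = Real.pi * a * bet ^ s * lmb ^ i * (bet * lmb) := by
            rw [this, mul_one]
        _ = _ := by ring
    have eB : ∀ i : ℕ, B * lmb ^ i = Real.pi * a * lmb ^ (i + 1) := by
      intro i
      rw [hB, pow_succ]
      ring
    have eAB : Real.pi * (a * (bet ^ t - 1)) * lmb = A - B := by
      have := eA 0
      rw [pow_zero, mul_one, zero_add, pow_one] at this
      rw [this, hB]
      ring
    rw [eAB]
    have h1 := psi_sub_mul A B (9 / 100)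
      (fun i => by rw [eA]; exact cos_bet_lmb_ne h.int t (i + 1))
      (fun i => by rw [eB]; exact cos_lmb_ne h.int (i + 1))
      (fun n => by
        have := h.inter_le t ht n
        simp_rw [eA, eB]
        exact this)
    have hexp : Real.exp (9 / 100) - 1 ≤ 1 / 10 := by
      have := Real.exp_bound_div_one_sub_of_interval' (x := 9 / 100) (by norm_num) (by norm_num)
      norm_num at this ⊢
      linarith
    have h2 : |psi A| ≥ 8 / 10 * θ := by
      apply h.psi_bet_ge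
      have h3 : ((t - 1 : ℕ) : ℝ) ≤ t := by exact_mod_cast Nat.sub_le t 1
      have h4 : ρ ^ 2 * ((t - 1 : ℕ) : ℝ) ≤ ρ ^ 2 * t :=
        mul_le_mul_of_nonneg_left h3 (sq_nonneg _)
      linarith
    have h3 : θ ≤ |psi B| := h.hθ
    have hθ0 := h.hθ0
    have h4 : |psi A * psi B| ≥ 8 / 10 * θ ^ 2 := by
      rw [abs_mul]
      nlinarith
    have h5 : |psi (A - B)| ≥ |psi A * psi B| - |psi (A - B) - psi A * psi B| := by
      have := abs_sub_abs_le_abs_sub (psi A * psi B) (psi (A - B))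
      rw [abs_sub_comm] at this
      linarith
    have h6 : |psi A * psi B| * (Real.exp (9 / 100) - 1) ≤ |psi A * psi B| * (1 / 10) :=
      mul_le_mul_of_nonneg_left hexp (abs_nonneg _)
    nlinarith [sq_nonneg θ]
  hθ0 := by
    have := h.hθ0
    positivity
  hρ0 := hρ0'
  hρ := hρ'
  hρT := hρT'
  hT100 := by
    have := h.hT100
    omega

theorem St.step (h : St a b z ρ θ T L) :
    ∃ (a' b' : ℝ) (z' : ℂ) (ρ' : ℝ) (T' L' : ℕ), St a' b' z' ρ' (θ ^ 2 / 2) T' L' ∧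
      ρ' ^ 4 ≤ 38416 * ρ ^ 9 ∧ 3 * T ≤ T' := by
  have hρ0 := h.hρ0
  have hρ := h.hρ
  have hρT := h.rho_T
  have hT4 := h.hρT
  have h100 : (100 : ℝ) ≤ T := by exact_mod_cast h.hT100
  set N := ⌊1 / ρ ^ 2⌋₊ with hN
  have hinv : (1 : ℝ) ≤ 1 / ρ ^ 2 := by
    rw [le_div_iff₀ (by positivity)]
    nlinarith
  have hN0 : 0 < N := Nat.floor_pos.mpr hinv
  have hN1 : (N : ℝ) ≤ 1 / ρ ^ 2 := Nat.floor_le (by positivity)
  have hN2 : 1 / ρ ^ 2 < N + 1 := Nat.lt_floor_add_one _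
  obtain ⟨q, hq0, hqN, hq⟩ := dirichlet_alp N hN0
  have hq7 : ‖alp ^ q - 1‖ ≤ 7 * ρ ^ 2 := by
    refine hq.trans ?_
    rw [div_le_iff₀ (by positivity)]
    rw [div_lt_iff₀ (by positivity)] at hN2
    have hpi : Real.pi < 3.15 := Real.pi_lt_d2
    nlinarith
  set m := T / q + 1 with hm
  set t := m * q with ht
  have hTt : T ≤ t := by
    have := Nat.lt_mul_div_succ T hq0
    rw [ht, hm, mul_comm]
    exact this.le
  have hm1 : (1 : ℝ) ≤ m := by exact_mod_cast Nat.le_add_left 1 _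
  have hm2T : (m : ℝ) ≤ 2 * T := by
    have h1 : m ≤ T + 1 := Nat.add_le_add_right (Nat.div_le_self T q) 1
    have h2 : (m : ℝ) ≤ T + 1 := by exact_mod_cast h1
    linarith
  have hρN : ρ ^ 2 * N ≤ 1 := by
    rw [le_div_iff₀ (by positivity)] at hN1
    linarith
  have hT1 : (1 : ℝ) ≤ T := by linarith
  -- `T ≤ 1/ρ`-type bounds
  have hcase : (m = 1 ∧ (t : ℝ) ≤ N) ∨ ((t : ℝ) ≤ 2 * T) := by
    rcases lt_or_ge T q with hlt | hge
    · left
      have : m = 1 := by rw [hm, Nat.div_eq_of_lt hlt]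
      refine ⟨this, ?_⟩
      rw [ht, this, one_mul]
      exact_mod_cast hqN
    · right
      have h1 : t ≤ T + q := by
        rw [ht, hm, add_mul, one_mul]
        exact Nat.add_le_add_right (Nat.div_mul_le_self T q) q
      have h2 : t ≤ 2 * T := by omega
      exact_mod_cast h2
  have ht0 : (0 : ℝ) ≤ t := Nat.cast_nonneg t
  have htρ : ρ ^ 2 * t ≤ 1 := by
    rcases hcase with ⟨_, h1⟩ | h1
    · exact (mul_le_mul_of_nonneg_left h1 (sq_nonneg _)).trans hρN
    · have : ρ ^ 2 * t ≤ ρ ^ 2 * (2 * T) := mul_le_mul_of_nonneg_left h1 (sq_nonneg _)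
      nlinarith
  set ρ' := 7 * m * ρ ^ 3 with hρ'
  have hρ'0 : 0 < ρ' := by positivity
  have hρ'T : ρ' ≤ 14 * T * ρ ^ 3 := by
    have : 0 ≤ ρ ^ 3 := by positivity
    nlinarith
  have hz' : ρ * ‖alp ^ t - 1‖ ≤ ρ' := by
    have h1 := norm_pow_mul_sub_one m q
    have h2 : ‖alp ^ t - 1‖ ≤ m * (7 * ρ ^ 2) :=
      h1.trans (mul_le_mul_of_nonneg_left hq7 (by positivity))
    calc ρ * ‖alp ^ t - 1‖ ≤ ρ * (m * (7 * ρ ^ 2)) := mul_le_mul_of_nonneg_left h2 hρ0.le
      _ = ρ' := by rw [hρ']; ring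
  have hρ'30 : ρ' ≤ 1 / 30000 := by
    refine hρ'T.trans ?_
    have : 14 * T * ρ ^ 3 = 14 * (ρ * T) * ρ * ρ := by ring
    rw [this]
    have h1 : 14 * (ρ * T) * ρ ≤ 1 := by nlinarith
    nlinarith
  have hρT' : ρ' ^ 3 * ((3 * t : ℕ) : ℝ) ^ 4 ≤ 1 := by
    push_cast
    have e : ρ' ^ 3 * (3 * (t : ℝ)) ^ 4 = 27783 * (ρ ^ 9 * ((m : ℝ) ^ 3 * t ^ 4)) := by
      rw [hρ']; ring
    rw [e]
    rcases hcase with ⟨hm', h1⟩ | h1
    · rw [hm']
      have h2 : (ρ ^ 2 * t) ^ 4 ≤ 1 := pow_le_one₀ (by positivity) htρ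
      have e2 : ρ ^ 9 * (((1 : ℕ) : ℝ) ^ 3 * (t : ℝ) ^ 4) = ρ * (ρ ^ 2 * t) ^ 4 := by
        push_cast; ring
      rw [e2]
      have : ρ * (ρ ^ 2 * t) ^ 4 ≤ 1 / 30000 := by
        calc ρ * (ρ ^ 2 * t) ^ 4 ≤ ρ * 1 := mul_le_mul_of_nonneg_left h2 hρ0.le
          _ ≤ 1 / 30000 := by linarith
      linarith
    · have h2 : (m : ℝ) ^ 3 ≤ (2 * T) ^ 3 := pow_le_pow_left₀ (by positivity) hm2T 3
      have h3 : (t : ℝ) ^ 4 ≤ (2 * T) ^ 4 := pow_le_pow_left₀ ht0 h1 4
      have h4 : (m : ℝ) ^ 3 * t ^ 4 ≤ (2 * T) ^ 3 * (2 * T) ^ 4 :=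
        mul_le_mul h2 h3 (by positivity) (by positivity)
      have h5 : ρ ^ 9 * ((m : ℝ) ^ 3 * t ^ 4) ≤ ρ ^ 9 * ((2 * T) ^ 3 * (2 * T) ^ 4) :=
        mul_le_mul_of_nonneg_left h4 (by positivity)
      have e2 : ρ ^ 9 * ((2 * (T : ℝ)) ^ 3 * (2 * T) ^ 4)
          = 128 * (ρ ^ 2 * (ρ * T) ^ 3 * (ρ ^ 3 * T ^ 4) * ρ) := by ring
      rw [e2] at h5
      have h6 : (ρ * T) ^ 3 ≤ 1 := pow_le_one₀ (by positivity) (by linarith)
      have h7 : ρ ^ 2 * (ρ * T) ^ 3 * (ρ ^ 3 * T ^ 4) * ρ ≤ ρ ^ 2 * 1 * 1 * ρ := by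
        gcongr
      have h8 : ρ ^ 2 * 1 * 1 * ρ ≤ 1 / 30000 ^ 3 := by
        have : ρ ^ 3 ≤ (1 / 30000) ^ 3 := pow_le_pow_left₀ hρ0.le hρ 3
        norm_num at this ⊢
        nlinarith
      have h9 : 27783 * (128 * (1 / 30000 ^ 3) : ℝ) ≤ 1 := by norm_num
      nlinarith
  refine ⟨_, _, _, ρ', 3 * t, L + t, h.next t hTt htρ ρ' hz' hρ'0 hρ'30 hρT', ?_, by omega⟩
  have h1 : ρ' ^ 4 ≤ (14 * T * ρ ^ 3) ^ 4 := pow_le_pow_left₀ hρ'0.le hρ'T 4
  refine h1.trans ?_
  have e : (14 * (T : ℝ) * ρ ^ 3) ^ 4 = 38416 * ρ ^ 9 * (ρ ^ 3 * T ^ 4) := by ring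
  rw [e]
  exact mul_le_of_le_one_right (by positivity) hT4

end Vale.Agent.P105
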