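import Vale.Agent.P105.Salem.Cov

open MeasureTheory ProbabilityTheory Filter
open scoped ENNReal Topology

namespace Vale.Agent.P105

/-- a sign of `x`, never zero -/
noncomputable def sg (x : ℝ) : ℝ := if 0 ≤ x then 1 else -1

lemma sg_mul_self (x : ℝ) : sg x * x = |x| := by
  unfold sg
  split_ifs with h
  · rw [one_mul, abs_of_nonneg h]
  · rw [abs_of_neg (not_le.mp h)]; ring

lemma abs_sg (x : ℝ) : |sg x| = 1 := by
  unfold sg
  split_ifs <;> simp

variable {a b : ℝ} {z : ℂ} {ρ θ : ℝ} {T L : ℕ}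

/-- the linear statistic -/
noncomputable def stat (a : ℝ) (N : ℕ) (x : ℝ) : ℝ :=
  ∑ m ∈ Finset.range N, sg (psi (Real.pi * a * bet ^ m)) * Real.cos (Real.pi * a * bet ^ m * x)

/-- its mean -/
noncomputable def mean (a : ℝ) (N : ℕ) : ℝ :=
  ∑ m ∈ Finset.range N, |psi (Real.pi * a * bet ^ m)|

lemma measurable_stat (a : ℝ) (N : ℕ) : Measurable (stat a N) := by
  unfold stat
  fun_prop

lemma abs_stat_le (a : ℝ) (N : ℕ) (x : ℝ) : |stat a N x| ≤ N := by
  unfold stat
  refine (Finset.abs_sum_le_sum_abs _ _).trans ?_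
  calc ∑ m ∈ Finset.range N,
        |sg (psi (Real.pi * a * bet ^ m)) * Real.cos (Real.pi * a * bet ^ m * x)|
      ≤ ∑ _m ∈ Finset.range N, (1 : ℝ) := by
        apply Finset.sum_le_sum
        intro m _
        rw [abs_mul, abs_sg, one_mul]
        exact Real.abs_cos_le_one _
    _ = N := by simp

lemma integral_stat_eq (a : ℝ) (N : ℕ) : ∫ x, stat a N x ∂(bernoulliConv lmb) = mean a N := by
  unfold stat mean
  rw [integral_stat]
  apply Finset.sum_congr rfl
  intro m _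
  exact sg_mul_self _

lemma integral_stat_sub_sq (a : ℝ) (N : ℕ) :
    ∫ x, (stat a N x - mean a N) ^ 2 ∂(bernoulliConv lmb) =
      ∑ m ∈ Finset.range N, ∑ n ∈ Finset.range N,
        sg (psi (Real.pi * a * bet ^ m)) * sg (psi (Real.pi * a * bet ^ n)) *
        ((psi (Real.pi * a * bet ^ m - Real.pi * a * bet ^ n) +
          psi (Real.pi * a * bet ^ m + Real.pi * a * bet ^ n)) / 2 -
          psi (Real.pi * a * bet ^ m) * psi (Real.pi * a * bet ^ n)) := by
  have hm := measurable_stat a N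
  have hi : Integrable (stat a N) (bernoulliConv lmb) :=
    Integrable.of_bound hm.aestronglyMeasurable (N : ℝ)
      (Eventually.of_forall fun x => by rw [Real.norm_eq_abs]; exact abs_stat_le a N x)
  have hi2 : Integrable (fun x => stat a N x ^ 2) (bernoulliConv lmb) :=
    Integrable.of_bound (hm.pow_const 2).aestronglyMeasurable ((N : ℝ) ^ 2)
      (Eventually.of_forall fun x => by
        rw [Real.norm_eq_abs, abs_pow]
        exact pow_le_pow_left₀ (abs_nonneg _) (abs_stat_le a N x) 2)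
  have e1 : ∀ x, (stat a N x - mean a N) ^ 2
      = stat a N x ^ 2 + (-2 * mean a N) * stat a N x + mean a N ^ 2 := fun x => by ring
  simp_rw [e1]
  have hi3 : Integrable (fun x => (-2 * mean a N) * stat a N x) (bernoulliConv lmb) :=
    hi.const_mul _
  have hi4 : Integrable (fun x => stat a N x ^ 2 + (-2 * mean a N) * stat a N x)
    (bernoulliConv lmb) := hi2.add hi3
  rw [integral_add hi4 (integrable_const _), integral_add hi2 hi3, integral_const_mul,
    integral_stat_eq, integral_const]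
  simp only [probReal_univ, smul_eq_mul, one_mul]
  have e2 : ∫ x, stat a N x ^ 2 ∂(bernoulliConv lmb) =
      ∑ m ∈ Finset.range N, ∑ n ∈ Finset.range N,
        sg (psi (Real.pi * a * bet ^ m)) * sg (psi (Real.pi * a * bet ^ n)) *
        ((psi (Real.pi * a * bet ^ m - Real.pi * a * bet ^ n) +
          psi (Real.pi * a * bet ^ m + Real.pi * a * bet ^ n)) / 2) := by
    unfold stat
    rw [integral_stat_sq]
    rfl
  have e3 : mean a N ^ 2 = ∑ m ∈ Finset.range N, ∑ n ∈ Finset.range N,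
        sg (psi (Real.pi * a * bet ^ m)) * sg (psi (Real.pi * a * bet ^ n)) *
        (psi (Real.pi * a * bet ^ m) * psi (Real.pi * a * bet ^ n)) := by
    rw [sq, mean, Finset.sum_mul_sum]
    apply Finset.sum_congr rfl
    intro m _
    apply Finset.sum_congr rfl
    intro n _
    rw [← sg_mul_self, ← sg_mul_self]
    ring
  rw [e2]
  have e4 : (-2 * mean a N) * mean a N + mean a N ^ 2 = - mean a N ^ 2 := by ring
  rw [add_assoc, e4, e3, ← sub_eq_add_neg, ← Finset.sum_sub_distrib]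
  apply Finset.sum_congr rfl
  intro m _
  rw [← Finset.sum_sub_distrib]
  apply Finset.sum_congr rfl
  intro n _
  ring

lemma St.variance (h : St a b z ρ θ T L) {S : ℝ} {N : ℕ}
    (hS : N * ρ ^ 2 + ρ / 2 + ρ * T + 2 / T ≤ S) :
    ∫ x, (stat a N x - mean a N) ^ 2 ∂(bernoulliConv lmb)
      ≤ 4 * N * T + mean a N ^ 2 * (Real.exp S - 1) := by
  rw [integral_stat_sub_sq]
  have h1 : ∀ m ∈ Finset.range N, ∀ n ∈ Finset.range N,
      sg (psi (Real.pi * a * bet ^ m)) * sg (psi (Real.pi * a * bet ^ n)) *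
        ((psi (Real.pi * a * bet ^ m - Real.pi * a * bet ^ n) +
          psi (Real.pi * a * bet ^ m + Real.pi * a * bet ^ n)) / 2 -
          psi (Real.pi * a * bet ^ m) * psi (Real.pi * a * bet ^ n))
      ≤ (if n ∈ Finset.Ico (m + 1 - T) (m + T) then 2 else 0) +
        |psi (Real.pi * a * bet ^ m)| * |psi (Real.pi * a * bet ^ n)| * (Real.exp S - 1) := by
    intro m hm n hn
    refine (le_abs_self _).trans ?_
    rw [abs_mul, abs_mul, abs_sg, abs_sg, one_mul, one_mul]
    exact h.cov hS (Finset.mem_range.mp hm) (Finset.mem_range.mp hn)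
  refine (Finset.sum_le_sum fun m hm => Finset.sum_le_sum fun n hn => h1 m hm n hn).trans ?_
  simp_rw [Finset.sum_add_distrib]
  apply add_le_add
  · have h2 : ∀ m ∈ Finset.range N,
        ∑ n ∈ Finset.range N, (if n ∈ Finset.Ico (m + 1 - T) (m + T) then (2 : ℝ) else 0)
          ≤ 4 * T := by
      intro m _
      rw [← Finset.sum_filter, Finset.sum_const, nsmul_eq_mul]
      have h3 : (Finset.filter (fun n => n ∈ Finset.Ico (m + 1 - T) (m + T))
          (Finset.range N)).card ≤ 2 * T := by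
        refine (Finset.card_le_card (t := Finset.Ico (m + 1 - T) (m + T)) ?_).trans ?_
        · intro n hn
          exact (Finset.mem_filter.mp hn).2
        · rw [Nat.card_Ico]
          omega
      have h4 : ((Finset.filter (fun n => n ∈ Finset.Ico (m + 1 - T) (m + T))
          (Finset.range N)).card : ℝ) ≤ 2 * T := by exact_mod_cast h3
      linarith
    refine (Finset.sum_le_sum h2).trans ?_
    rw [Finset.sum_const, Finset.card_range, nsmul_eq_mul]
    apply le_of_eq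
    ring
  · apply le_of_eq
    rw [sq, mean, Finset.sum_mul_sum, Finset.sum_mul]
    apply Finset.sum_congr rfl
    intro m _
    rw [Finset.sum_mul]

lemma St.mean_ge (h : St a b z ρ θ T L) {N : ℕ} (hN : ρ ^ 2 * N ≤ 1 + ρ ^ 2) :
    N * (8 / 10 * θ) ≤ mean a N := by
  unfold mean
  have h1 : ∀ m ∈ Finset.range N, 8 / 10 * θ ≤ |psi (Real.pi * a * bet ^ m)| := by
    intro m hm
    apply h.psi_bet_ge
    have h2 : (m + 1 : ℝ) ≤ N := by exact_mod_cast Finset.mem_range.mp hm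
    have := mul_le_mul_of_nonneg_left h2 (sq_nonneg ρ)
    linarith
  have h2 := Finset.sum_le_sum h1
  rwa [Finset.sum_const, Finset.card_range, nsmul_eq_mul] at h2

lemma exp_four_le {η : ℝ} (h0 : 0 < η) (h1 : η ≤ 1 / 40) : Real.exp (4 * η) - 1 ≤ 8 * η := by
  have h1 := Real.exp_bound_div_one_sub_of_interval' (x := 4 * η) (by linarith) (by linarith)
  have h2 : 1 / (1 - 4 * η) ≤ 1 + 8 * η := by
    rw [div_le_iff₀ (by linarith)]
    nlinarith
  linarith

lemma exists_stat (h0 : St a b z ρ θ T L) (η : ℝ) (hη0 : 0 < η) (hη1 : η ≤ 1 / 40) :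
    ∃ (a' : ℝ) (N : ℕ), 0 < mean a' N ∧ 1 ≤ |a'| ∧
      ∫ x, (stat a' N x - mean a' N) ^ 2 ∂(bernoulliConv lmb) ≤ 9 * η * mean a' N ^ 2 ∧
      (100 : ℝ) * N ≤ η * mean a' N ^ 2 := by
  set δ := 16 / 100 * η ^ 2 with hδ
  have hδ0 : 0 < δ := by positivity
  obtain ⟨a1, b1, z1, ρ, θ, T, L, h, hρM, hρθ, hTM⟩ :=
    exists_good_of h0 (1 / δ ^ 4 + 1 / η ^ 4 + 2 / η)
  have hρ0 := h.hρ0
  have hρs := h.hρ
  have hθ0 := h.hθ0
  have hT4 := h.hρT
  have h100 : (100 : ℝ) ≤ T := by exact_mod_cast h.hT100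
  -- consequences of the choice of `M`
  have hp1 : 0 < 1 / δ ^ 4 := by positivity
  have hp2 : 0 < 1 / η ^ 4 := by positivity
  have hp3 : 0 < 2 / η := by positivity
  have hρδ : ρ ≤ δ ^ 4 := by
    have : ρ * (1 / δ ^ 4) ≤ 1 := by nlinarith
    rwa [mul_one_div, div_le_one (by positivity)] at this
  have hρη : ρ ≤ η ^ 4 := by
    have : ρ * (1 / η ^ 4) ≤ 1 := by nlinarith
    rwa [mul_one_div, div_le_one (by positivity)] at this
  have hTη : 2 / T ≤ η := by
    have : 2 / η ≤ T := by linarith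
    rw [div_le_iff₀ hη0] at this
    rw [div_le_iff₀ (by linarith)]
    linarith
  have hρTη : ρ * T ≤ η := by
    by_contra hc
    push Not at hc
    have h1 : η ^ 4 < (ρ * T) ^ 4 := pow_lt_pow_left₀ hc hη0.le (by norm_num)
    have h2 : (ρ * T) ^ 4 = ρ * (ρ ^ 3 * T ^ 4) := by ring
    have h3 : (ρ * T) ^ 4 ≤ ρ := by
      rw [h2]
      exact mul_le_of_le_one_right hρ0.le hT4
    linarith
  have hkey : T * ρ ^ 2 ≤ δ * θ ^ 2 := by
    by_contra hc
    push Not at hc
    have h1 : (δ * θ ^ 2) ^ 4 < (T * ρ ^ 2) ^ 4 :=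
      pow_lt_pow_left₀ hc (by positivity) (by norm_num)
    have h2 : (T * ρ ^ 2) ^ 4 = (ρ ^ 3 * T ^ 4) * (ρ ^ 3 * ρ ^ 2) := by ring
    have h3 : (T * ρ ^ 2) ^ 4 ≤ ρ ^ 3 * ρ ^ 2 := by
      rw [h2]
      exact mul_le_of_le_one_left (by positivity) hT4
    have h4 : (δ * θ ^ 2) ^ 4 = δ ^ 4 * (θ ^ 4) ^ 2 := by ring
    have h5 : ρ ^ 2 ≤ (θ ^ 4) ^ 2 := pow_le_pow_left₀ hρ0.le hρθ 2
    have h6 : δ ^ 4 * ρ ^ 2 ≤ δ ^ 4 * (θ ^ 4) ^ 2 :=
      mul_le_mul_of_nonneg_left h5 (by positivity)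
    have h7 : δ ^ 4 * ρ ^ 2 < ρ ^ 3 * ρ ^ 2 := by linarith
    have h8 : δ ^ 4 < ρ ^ 3 := lt_of_mul_lt_mul_right h7 (by positivity)
    have h9 : ρ ^ 3 ≤ ρ := by
      have : ρ ^ 3 ≤ ρ ^ 1 := pow_le_pow_of_le_one hρ0.le (by linarith) (by norm_num)
      simpa using this
    linarith
  -- the number of terms
  set N := ⌊η / ρ ^ 2⌋₊ + 1 with hN
  have hN1 : η / ρ ^ 2 ≤ N := by
    rw [hN]
    push_cast
    exact (Nat.lt_floor_add_one _).le
  have hN2 : ρ ^ 2 * N ≤ η + ρ ^ 2 := by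
    have : (⌊η / ρ ^ 2⌋₊ : ℝ) ≤ η / ρ ^ 2 := Nat.floor_le (by positivity)
    rw [le_div_iff₀ (by positivity)] at this
    rw [hN]
    push_cast
    linarith
  have hN3 : η ≤ N * ρ ^ 2 := by
    rwa [div_le_iff₀ (by positivity)] at hN1
  have hNpos : (0 : ℝ) < N := by
    rw [hN]
    positivity
  have hS : N * ρ ^ 2 + ρ / 2 + ρ * T + 2 / T ≤ 4 * η := by
    have h1 : ρ ^ 2 + ρ / 2 ≤ ρ * T := by nlinarith
    have h2 : (N : ℝ) * ρ ^ 2 ≤ η + ρ ^ 2 := by linarith
    linarith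
  have hexp := exp_four_le hη0 hη1
  have hmean := h.mean_ge (N := N) (by linarith)
  have hmean0 : 0 < mean a1 N := lt_of_lt_of_le (by positivity) hmean
  -- the basic inequality `4 * T ≤ 0.64 η N θ^2`
  have hbig : 4 * N * T ≤ η * mean a1 N ^ 2 := by
    have h1 : (N * (8 / 10 * θ)) ^ 2 ≤ mean a1 N ^ 2 :=
      pow_le_pow_left₀ (by positivity) hmean 2
    have h2 : 4 * T * ρ ^ 2 ≤ 64 / 100 * η * (N * ρ ^ 2) * θ ^ 2 := by
      have h3 : 64 / 100 * η * η * θ ^ 2 ≤ 64 / 100 * η * (N * ρ ^ 2) * θ ^ 2 := by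
        gcongr
      have h4 : 4 * T * ρ ^ 2 ≤ 4 * (δ * θ ^ 2) := by linarith
      have h5 : 4 * (δ * θ ^ 2) = 64 / 100 * η * η * θ ^ 2 := by rw [hδ]; ring
      linarith
    have h3 : 4 * T ≤ 64 / 100 * η * N * θ ^ 2 := by
      have : 4 * T * ρ ^ 2 ≤ (64 / 100 * η * N * θ ^ 2) * ρ ^ 2 := by
        calc _ ≤ _ := h2
          _ = _ := by ring
      exact le_of_mul_le_mul_right this (by positivity)
    calc (4 : ℝ) * N * T = N * (4 * T) := by ring
      _ ≤ N * (64 / 100 * η * N * θ ^ 2) := mul_le_mul_of_nonneg_left h3 hNpos.le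
      _ = η * (N * (8 / 10 * θ)) ^ 2 := by ring
      _ ≤ η * mean a1 N ^ 2 := mul_le_mul_of_nonneg_left h1 hη0.le
  refine ⟨a1, N, hmean0, h.one_le, ?_, ?_⟩
  · refine (h.variance hS).trans ?_
    have h1 : mean a1 N ^ 2 * (Real.exp (4 * η) - 1) ≤ mean a1 N ^ 2 * (8 * η) :=
      mul_le_mul_of_nonneg_left hexp (sq_nonneg _)
    linarith
  · have h2 : (100 : ℝ) * N ≤ 4 * N * T := by nlinarith
    linarith

/-- The Bernoulli convolution is singular, provided that one state exists. -/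
theorem singular_of_state (h0 : St a b z ρ θ T L) : IsSingular (bernoulliConv lmb) := by
  have hcrit : ∃ E : Set ℝ, MeasurableSet E ∧ bernoulliConv lmb Eᶜ = 0 ∧
      gaussianReal 0 1 E = 0 := by
    apply singular_criterion
    intro ε hε
    -- small parameters
    set η := min ε 1 / 40 with hη
    have hη0 : 0 < η := by positivity
    have hη1 : η ≤ 1 / 40 := by
      rw [hη]
      have := min_le_right ε 1
      linarith
    have hηε : 40 * η ≤ ε := by
      rw [hη]
      have := min_le_left ε 1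
      linarith
    obtain ⟨a1, N, hm0, ha1, hv, hN⟩ := exists_stat h0 η hη0 hη1
    refine ⟨stat a1 N, mean a1 N, N, measurable_stat a1 N, abs_stat_le a1 N, hm0, ?_, ?_⟩
    · refine hv.trans ?_
      have h2 : 0 ≤ mean a1 N ^ 2 := sq_nonneg _
      exact mul_le_mul_of_nonneg_right (by linarith) h2
    · have h1 := gauss_stat ha1 N (fun m => sg (psi (Real.pi * a1 * bet ^ m)))
        (fun m => (abs_sg _).le)
      refine h1.trans (hN.trans ?_)
      have h3 : 0 ≤ mean a1 N ^ 2 := sq_nonneg _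
      exact mul_le_mul_of_nonneg_right (by linarith) h3
  obtain ⟨E, hE, h1, h2⟩ := hcrit
  exact ⟨E, hE, h1, volume_zero_of_gauss h2⟩

end Vale.Agent.P105
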